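import Crest.Agent.R84.Vac

/-!
# R84 task FLOW: algebra of the modular flow `σ_t(a) = U_t a U_{-t}` and invariance of `β, γ, X`.
All from `Calc.lean`, `wave_vac`, `S.flow_mem`, `supp_wave`.
-/

set_option autoImplicit false

namespace Crest.Agent.R84

open Crest.OpAlg

variable {H : Type*} [NormedAddCommGroup H] [InnerProductSpace ℂ H] [CompleteSpace H]

theorem flow_apply (S : ModularDatum H) (t : ℝ) (a : H →L[ℂ] H) (x : H) :
    S.flow t a x = S.D.wave t (a (S.D.wave (-t) x)) := rfl

theorem flow_vac (S : ModularDatum H) (t : ℝ) (a : H →L[ℂ] H) :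
    S.flow t a S.vac = S.D.wave t (a S.vac) := by
  rw [flow_apply, wave_vac]

theorem flow_mem (S : ModularDatum H) (t : ℝ) {a : H →L[ℂ] H} (ha : a ∈ S.M) :
    S.flow t a ∈ S.M := S.flow_mem t a ha

theorem flow_zero (S : ModularDatum H) (a : H →L[ℂ] H) : S.flow 0 a = a := by
  unfold ModularDatum.flow
  rw [neg_zero, wave_zero, one_mul, mul_one]

theorem flow_flow (S : ModularDatum H) (s t : ℝ) (a : H →L[ℂ] H) :
    S.flow s (S.flow t a) = S.flow (s + t) a := by
  unfold ModularDatum.flow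
  rw [neg_add_rev, wave_add, wave_add]
  simp only [mul_assoc]

theorem flow_mul (S : ModularDatum H) (t : ℝ) (a b : H →L[ℂ] H) :
    S.flow t (a * b) = S.flow t a * S.flow t b := by
  unfold ModularDatum.flow
  calc S.D.wave t * (a * b) * S.D.wave (-t)
      = S.D.wave t * a * 1 * b * S.D.wave (-t) := by simp only [mul_one, mul_assoc]
    _ = S.D.wave t * a * (S.D.wave (-t) * S.D.wave t) * b * S.D.wave (-t) := by
        rw [wave_neg_mul_wave]
    _ = S.D.wave t * a * S.D.wave (-t) * (S.D.wave t * b * S.D.wave (-t)) := by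
        simp only [mul_assoc]

theorem flow_star (S : ModularDatum H) (t : ℝ) (a : H →L[ℂ] H) :
    S.flow t (star a) = star (S.flow t a) := by
  unfold ModularDatum.flow
  rw [star_mul, star_mul, star_wave, star_wave, neg_neg, mul_assoc]

theorem flow_add (S : ModularDatum H) (t : ℝ) (a b : H →L[ℂ] H) :
    S.flow t (a + b) = S.flow t a + S.flow t b := by
  unfold ModularDatum.flow
  rw [mul_add, add_mul]

theorem flow_smul (S : ModularDatum H) (t : ℝ) (c : ℂ) (a : H →L[ℂ] H) :
    S.flow t (c • a) = c • S.flow t a := by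
  unfold ModularDatum.flow
  rw [mul_smul_comm, smul_mul_assoc]

theorem norm_flow_le (S : ModularDatum H) (t : ℝ) (a : H →L[ℂ] H) : ‖S.flow t a‖ ≤ ‖a‖ := by
  refine ContinuousLinearMap.opNorm_le_bound _ (norm_nonneg a) (fun x => ?_)
  rw [flow_apply, norm_wave_apply]
  calc ‖a (S.D.wave (-t) x)‖ ≤ ‖a‖ * ‖S.D.wave (-t) x‖ := ContinuousLinearMap.le_opNorm _ _
    _ = ‖a‖ * ‖x‖ := by rw [norm_wave_apply]

theorem inner_flow (S : ModularDatum H) (t : ℝ) (a : H →L[ℂ] H) (x y : H) :
    inner ℂ x (S.flow t a y) = inner ℂ (S.D.wave (-t) x) (a (S.D.wave (-t) y)) := by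
  rw [flow_apply, inner_wave_right]

theorem beta_flow (S : ModularDatum H) (t : ℝ) (w : H →L[ℂ] H) :
    beta S (S.flow t w) = beta S w := by
  unfold beta
  rw [flow_vac, norm_wave_apply]

theorem gam_flow (S : ModularDatum H) (t : ℝ) (w : H →L[ℂ] H) :
    gam S (S.flow t w) = gam S w := by
  unfold gam
  rw [← flow_star, flow_vac, norm_wave_apply]

theorem XX_flow (S : ModularDatum H) (t : ℝ) (w : H →L[ℂ] H) :
    XX S (S.flow t w) = XX S w := by
  unfold XX
  rw [← flow_star, ← flow_mul, flow_vac, norm_wave_apply]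

theorem supp_flow_vac (S : ModularDatum H) (t : ℝ) {K : Set ℝ} {w : H →L[ℂ] H}
    (h : S.D.SupportedIn K (w S.vac)) : S.D.SupportedIn K (S.flow t w S.vac) := by
  rw [flow_vac]
  exact supp_wave S.D t h

end Crest.Agent.R84
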