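import Crest.Agent.R84.IntCalc
import Crest.Agent.R84.Flow

/-!
# R84 task SMOOTH (section F3): smoothing an element of `M` along the modular flow.
`b x := ∫ k(t) σ_t(a) x dt` (Bochner in `H`; integrand continuous×L¹: `continuous_conj_apply`, norm ≤ `‖k t‖ ‖a‖ ‖x‖`).
`b` is linear and bounded by `‖k‖₁‖a‖` (`LinearMap.mkContinuous`, `norm_integral_le_of_norm_le`).
`b ∈ M` by the double commutant theorem field (`S.M.commutant_commutant`, `VonNeumannAlgebra.mem_commutant_iff`): for `c` in the commutant,
`c (b x) = ∫ k(t) c σ_t(a) x = ∫ k(t) σ_t(a) c x = b (c x)` (`ContinuousLinearMap.integral_comp_comm`, `flow_mem`).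
`b ξ = ∫ k(t) U_t a ξ dt = f(D) a ξ` (`flow_vac`, `apply_eq_integral`).
-/

set_option autoImplicit false

namespace Crest.Agent.R84

open Crest.OpAlg MeasureTheory

variable {H : Type*} [NormedAddCommGroup H] [InnerProductSpace ℂ H] [CompleteSpace H]

theorem norm_flow_apply_le (S : ModularDatum H) (t : ℝ) (a : H →L[ℂ] H) (x : H) :
    ‖S.flow t a x‖ ≤ ‖a‖ * ‖x‖ :=
  ((S.flow t a).le_opNorm x).trans (by gcongr; exact norm_flow_le S t a)

theorem continuous_flow_apply (S : ModularDatum H) (a : H →L[ℂ] H) (x : H) :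
    Continuous fun t : ℝ => S.flow t a x := by
  have h := continuous_conj_apply S.D a x
  have h2 : (fun t : ℝ => S.flow t a x) = fun t : ℝ => S.D.wave t (a (S.D.wave (-t) x)) := by
    funext t; exact flow_apply S t a x
  rw [h2]; exact h

theorem integrable_smul_flow (S : ModularDatum H) (k : ℝ → ℂ) (hk : Integrable k)
    (a : H →L[ℂ] H) (x : H) : Integrable fun t : ℝ => k t • S.flow t a x :=
  hk.smul_bdd (‖a‖ * ‖x‖) (continuous_flow_apply S a x).aestronglyMeasurable
    (Filter.Eventually.of_forall fun t => norm_flow_apply_le S t a x)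

theorem exists_smooth (S : ModularDatum H) (k : ℝ → ℂ) (hk : Integrable k) (f : BCF)
    (hf : ∀ u : ℝ, f u = ∫ t, k t * Complex.exp (Complex.I * ((t * u : ℝ) : ℂ)))
    {a : H →L[ℂ] H} (ha : a ∈ S.M) :
    ∃ b ∈ S.M, ‖b‖ ≤ (∫ t, ‖k t‖) * ‖a‖ ∧ b S.vac = S.D.apply f (a S.vac) := by
  have hint := integrable_smul_flow S k hk a
  let L : H →ₗ[ℂ] H :=
    { toFun := fun x => ∫ t, k t • S.flow t a x
      map_add' := by
        intro x y
        rw [← integral_add (hint x) (hint y)]
        congr 1
        funext t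
        rw [map_add, smul_add]
      map_smul' := by
        intro c x
        simp only [RingHom.id_apply]
        rw [← integral_smul]
        congr 1
        funext t
        rw [map_smul, smul_comm] }
  have hL : ∀ x, L x = ∫ t, k t • S.flow t a x := fun x => rfl
  have hbound : ∀ x, ‖L x‖ ≤ ((∫ t, ‖k t‖) * ‖a‖) * ‖x‖ := by
    intro x
    rw [hL]
    have h1 : ‖∫ t, k t • S.flow t a x‖ ≤ ∫ t, ‖k t‖ * (‖a‖ * ‖x‖) := by
      apply norm_integral_le_of_norm_le (hk.norm.mul_const _)
      refine Filter.Eventually.of_forall fun t => ?_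
      rw [norm_smul]
      gcongr
      exact norm_flow_apply_le S t a x
    rw [integral_mul_const] at h1
    linarith
  let b : H →L[ℂ] H := L.mkContinuous ((∫ t, ‖k t‖) * ‖a‖) hbound
  have hb : ∀ x, b x = ∫ t, k t • S.flow t a x := fun x => rfl
  refine ⟨b, ?_, ?_, ?_⟩
  · rw [← S.M.commutant_commutant, VonNeumannAlgebra.mem_commutant_iff]
    intro c hc
    rw [VonNeumannAlgebra.mem_commutant_iff] at hc
    ext x
    change c (b x) = b (c x)
    rw [hb, hb, ← ContinuousLinearMap.integral_comp_comm c (hint x)]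
    congr 1
    funext t
    rw [map_smul]
    congr 1
    have h1 := hc (S.flow t a) (flow_mem S t ha)
    have h2 := congrArg (fun T : H →L[ℂ] H => T x) h1
    exact h2.symm
  · apply ContinuousLinearMap.opNorm_le_bound _ _ hbound
    exact mul_nonneg (integral_nonneg fun t => norm_nonneg _) (norm_nonneg _)
  · rw [hb, apply_eq_integral S.D k hk f hf]
    congr 1
    funext t
    rw [flow_vac]

end Crest.Agent.R84
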