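import Crest.Agent.R84.Fourier
import Crest.Agent.R84.Smooth

/-!
# R84 task BAND (section F1 scaling + F3): band-pass smoothing with a uniform constant.
From `exists_kernel` (`K`, `Fz`): `k(t) = ρ K(ρ t) e^{-ict}` has `∫‖k‖ = ∫‖K‖ =: CK` and
`∫ k(t) e^{itu} dt = Fz((u−c)/ρ)` (`MeasureTheory.Measure.integral_comp_mul_left`).
-/

set_option autoImplicit false

namespace Crest.Agent.R84

open Crest.OpAlg MeasureTheory

variable {H : Type*} [NormedAddCommGroup H] [InnerProductSpace ℂ H] [CompleteSpace H]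

theorem exists_band_kernel :
    ∃ CK : ℝ, 0 ≤ CK ∧ ∀ c ρ : ℝ, 0 < ρ → ∃ (k : ℝ → ℂ) (f : BCF), Integrable k ∧
      (∫ t, ‖k t‖) ≤ CK ∧
      (∀ u : ℝ, f u = ∫ t, k t * Complex.exp (Complex.I * ((t * u : ℝ) : ℂ))) ∧ ‖f‖ ≤ 1 ∧
      (∀ u ∈ Set.Icc (c - ρ) (c + ρ), f u = 1) ∧
      (∀ u, u ∉ Set.Icc (c - 2 * ρ) (c + 2 * ρ) → f u = 0) := by
  obtain ⟨K, Fz, hK, hFc, hF01, hF1, hF0, hFK⟩ := exists_kernel
  refine ⟨∫ t, ‖K t‖, integral_nonneg (fun _ => norm_nonneg _), ?_⟩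
  intro c ρ hρ
  -- the kernel
  let k : ℝ → ℂ := fun t => (ρ : ℂ) * (K (ρ * t) * Complex.exp (Complex.I * ((t * (-c) : ℝ) : ℂ)))
  -- the function
  let f : BCF := BoundedContinuousFunction.ofNormedAddCommGroup
    (fun u : ℝ => ((Fz ((u - c) / ρ) : ℝ) : ℂ))
    (Complex.continuous_ofReal.comp (hFc.comp (by fun_prop))) 1
    (fun u => by
      rw [Complex.norm_real, Real.norm_eq_abs, abs_of_nonneg (hF01 _).1]
      exact (hF01 _).2)
  have hfu : ∀ u, f u = ((Fz ((u - c) / ρ) : ℝ) : ℂ) := fun u => rfl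
  have hnormexp : ∀ r : ℝ, ‖Complex.exp (Complex.I * (r : ℂ))‖ = 1 := by
    intro r
    rw [mul_comm]
    exact Complex.norm_exp_ofReal_mul_I r
  have hKρ : Integrable (fun t => K (ρ * t)) := hK.comp_mul_left' hρ.ne'
  have hk : Integrable k := by
    refine Integrable.const_mul ?_ _
    refine hKρ.mul_bdd (c := 1) ?_ ?_
    · exact (Continuous.aestronglyMeasurable (by fun_prop))
    · exact Filter.Eventually.of_forall (fun t => (hnormexp _).le)
  refine ⟨k, f, hk, ?_, ?_, ?_, ?_, ?_⟩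
  · have h1 : ∀ t, ‖k t‖ = ρ * ‖K (ρ * t)‖ := by
      intro t
      simp only [k, norm_mul, hnormexp, mul_one, Complex.norm_real, Real.norm_eq_abs,
        abs_of_pos hρ]
    simp_rw [h1]
    rw [integral_const_mul]
    have h2 := MeasureTheory.Measure.integral_comp_mul_left (fun s => ‖K s‖) ρ
    rw [h2, abs_of_pos (inv_pos.2 hρ), smul_eq_mul, ← mul_assoc, mul_inv_cancel₀ hρ.ne', one_mul]
  · intro u
    rw [hfu, ← hFK]
    have h2 := MeasureTheory.Measure.integral_comp_mul_left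
      (fun s => K s * Complex.exp (Complex.I * ((s * ((u - c) / ρ) : ℝ) : ℂ))) ρ
    have h3 : (∫ s, K s * Complex.exp (Complex.I * ((s * ((u - c) / ρ) : ℝ) : ℂ)))
        = (ρ : ℝ) • ∫ t, K (ρ * t) * Complex.exp (Complex.I * ((ρ * t * ((u - c) / ρ) : ℝ) : ℂ)) := by
      rw [h2, abs_of_pos (inv_pos.2 hρ), smul_smul, mul_inv_cancel₀ hρ.ne', one_smul]
    rw [h3, ← integral_smul]
    refine integral_congr_ae (Filter.Eventually.of_forall fun t => ?_)
    simp only [k, Complex.real_smul]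
    have h4 : ρ * t * ((u - c) / ρ) = t * (-c) + t * u := by
      field_simp
      ring
    rw [h4]
    push_cast
    rw [mul_add, Complex.exp_add]
    ring
  · refine BoundedContinuousFunction.norm_ofNormedAddCommGroup_le _ zero_le_one _
  · intro u hu
    rw [hfu, hF1 _ ?_]
    · simp
    · constructor
      · rw [le_div_iff₀ hρ]; linarith [hu.1]
      · rw [div_le_iff₀ hρ]; linarith [hu.2]
  · intro u hu
    rw [hfu, hF0 _ ?_]
    · simp
    · intro hcon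
      apply hu
      constructor
      · have := hcon.1
        rw [le_div_iff₀ hρ] at this; linarith
      · have := hcon.2
        rw [div_le_iff₀ hρ] at this; linarith

theorem band_smooth :
    ∃ CK : ℝ, 0 ≤ CK ∧ ∀ (S : ModularDatum H) (c ρ : ℝ), 0 < ρ → ∃ f : BCF, ‖f‖ ≤ 1 ∧
      (∀ u ∈ Set.Icc (c - ρ) (c + ρ), f u = 1) ∧
      (∀ u, u ∉ Set.Icc (c - 2 * ρ) (c + 2 * ρ) → f u = 0) ∧
      ∀ a ∈ S.M, ∃ b ∈ S.M, ‖b‖ ≤ CK * ‖a‖ ∧ b S.vac = S.D.apply f (a S.vac) := by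
  obtain ⟨CK, hCK, h⟩ := exists_band_kernel
  refine ⟨CK, hCK, ?_⟩
  intro S c ρ hρ
  obtain ⟨k, f, hk, hkC, hf, hf1, hfone, hfzero⟩ := h c ρ hρ
  refine ⟨f, hf1, hfone, hfzero, ?_⟩
  intro a ha
  obtain ⟨b, hb, hbn, hbv⟩ := exists_smooth S k hk f hf ha
  exact ⟨b, hb, hbn.trans (mul_le_mul_of_nonneg_right hkC (norm_nonneg _)), hbv⟩

end Crest.Agent.R84
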