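import Crest.Agent.R84.Defs

/-!
# R84 task CALC (section A1): algebra of the calculus, characters and waves.
Everything is `map_mul / map_star / map_one` of the star-algebra hom `D.apply`, plus
`NonUnitalStarAlgHom.norm_apply_le D.apply f` for the norm bound, and
`ContinuousLinearMap.star_eq_adjoint`, `ContinuousLinearMap.adjoint_inner_left/right`.
-/

set_option autoImplicit false

namespace Crest.Agent.R84

open Crest.OpAlg

variable {H : Type*} [NormedAddCommGroup H] [InnerProductSpace ℂ H] [CompleteSpace H]

theorem apply_norm_le (D : LineCalculus H) (f : BCF) : ‖D.apply f‖ ≤ ‖f‖ :=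
  NonUnitalStarAlgHom.norm_apply_le D.apply f

theorem apply_apply_norm_le (D : LineCalculus H) (f : BCF) (x : H) :
    ‖D.apply f x‖ ≤ ‖f‖ * ‖x‖ :=
  (ContinuousLinearMap.le_opNorm _ _).trans
    (mul_le_mul_of_nonneg_right (apply_norm_le D f) (norm_nonneg x))

theorem apply_mul_apply (D : LineCalculus H) (f g : BCF) (x : H) :
    D.apply (f * g) x = D.apply f (D.apply g x) := by
  rw [map_mul]; rfl

theorem apply_comm (D : LineCalculus H) (f g : BCF) :
    D.apply f * D.apply g = D.apply g * D.apply f := by
  rw [← map_mul, ← map_mul, mul_comm]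

theorem inner_apply_left (D : LineCalculus H) (f : BCF) (x y : H) :
    inner ℂ (D.apply f x) y = inner ℂ x (D.apply (star f) y) := by
  rw [map_star, ContinuousLinearMap.star_eq_adjoint, ContinuousLinearMap.adjoint_inner_right]

theorem inner_apply_right (D : LineCalculus H) (f : BCF) (x y : H) :
    inner ℂ x (D.apply f y) = inner ℂ (D.apply (star f) x) y := by
  rw [map_star, ContinuousLinearMap.star_eq_adjoint, ContinuousLinearMap.adjoint_inner_left]

theorem character_apply (t u : ℝ) :
    LineCalculus.character t u = Complex.exp (Complex.I * ((t * u : ℝ) : ℂ)) := rfl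

theorem character_zero : LineCalculus.character 0 = 1 := by
  ext u
  simp [character_apply]

theorem character_add (s t : ℝ) :
    LineCalculus.character (s + t) = LineCalculus.character s * LineCalculus.character t := by
  ext u
  rw [BoundedContinuousFunction.mul_apply, character_apply, character_apply, character_apply,
    ← Complex.exp_add]
  congr 1
  push_cast
  ring

theorem star_character (t : ℝ) :
    star (LineCalculus.character t) = LineCalculus.character (-t) := by
  ext u
  rw [BoundedContinuousFunction.star_apply, character_apply, character_apply]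
  rw [Complex.star_def, ← Complex.exp_conj]
  congr 1
  simp

theorem wave_zero (D : LineCalculus H) : D.wave 0 = 1 := by
  unfold LineCalculus.wave
  rw [character_zero, map_one]

theorem wave_add (D : LineCalculus H) (s t : ℝ) : D.wave (s + t) = D.wave s * D.wave t := by
  unfold LineCalculus.wave
  rw [character_add, map_mul]

theorem wave_add_apply (D : LineCalculus H) (s t : ℝ) (x : H) :
    D.wave (s + t) x = D.wave s (D.wave t x) := by
  rw [wave_add]; rfl

theorem star_wave (D : LineCalculus H) (t : ℝ) : star (D.wave t) = D.wave (-t) := by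
  unfold LineCalculus.wave
  rw [← map_star, star_character]

theorem wave_mul_wave_neg (D : LineCalculus H) (t : ℝ) : D.wave t * D.wave (-t) = 1 := by
  rw [← wave_add, add_neg_cancel, wave_zero]

theorem wave_neg_mul_wave (D : LineCalculus H) (t : ℝ) : D.wave (-t) * D.wave t = 1 := by
  rw [← wave_add, neg_add_cancel, wave_zero]

theorem wave_wave_neg_apply (D : LineCalculus H) (t : ℝ) (x : H) :
    D.wave t (D.wave (-t) x) = x := by
  rw [← wave_add_apply, add_neg_cancel, wave_zero]; rfl

theorem wave_neg_wave_apply (D : LineCalculus H) (t : ℝ) (x : H) :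
    D.wave (-t) (D.wave t x) = x := by
  rw [← wave_add_apply, neg_add_cancel, wave_zero]; rfl

theorem inner_wave_left (D : LineCalculus H) (t : ℝ) (x y : H) :
    inner ℂ (D.wave t x) y = inner ℂ x (D.wave (-t) y) := by
  rw [← star_wave, ContinuousLinearMap.star_eq_adjoint, ContinuousLinearMap.adjoint_inner_right]

theorem inner_wave_right (D : LineCalculus H) (t : ℝ) (x y : H) :
    inner ℂ x (D.wave t y) = inner ℂ (D.wave (-t) x) y := by
  rw [← star_wave, ContinuousLinearMap.star_eq_adjoint, ContinuousLinearMap.adjoint_inner_left]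

theorem inner_wave_wave (D : LineCalculus H) (t : ℝ) (x y : H) :
    inner ℂ (D.wave t x) (D.wave t y) = inner ℂ x y := by
  rw [inner_wave_left, wave_neg_wave_apply]

theorem norm_wave_apply (D : LineCalculus H) (t : ℝ) (x : H) : ‖D.wave t x‖ = ‖x‖ := by
  have h := inner_wave_wave D t x x
  rw [inner_self_eq_norm_sq_to_K, inner_self_eq_norm_sq_to_K] at h
  have h2 : ‖D.wave t x‖ ^ 2 = ‖x‖ ^ 2 := by exact_mod_cast h
  exact (sq_eq_sq₀ (norm_nonneg _) (norm_nonneg _)).mp h2

theorem norm_wave_le (D : LineCalculus H) (t : ℝ) : ‖D.wave t‖ ≤ 1 :=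
  ContinuousLinearMap.opNorm_le_bound _ zero_le_one (fun x => by
    rw [norm_wave_apply, one_mul])

theorem wave_apply_comm (D : LineCalculus H) (t : ℝ) (f : BCF) (x : H) :
    D.wave t (D.apply f x) = D.apply f (D.wave t x) := by
  unfold LineCalculus.wave
  rw [← apply_mul_apply, ← apply_mul_apply, mul_comm]

end Crest.Agent.R84
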