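import Crest.Agent.R84.Calc

/-!
# R84 task CONT (section A3): strong continuity of `t ↦ U_t`.
For `x = χ(D) x'`, `χ` compactly supported in `[-R,R]`:
`‖(U_t − U_s) x‖ ≤ ‖(char t − char s) χ‖ ‖x'‖ ≤ |t−s| R ‖χ‖ ‖x'‖`; general `x` by `D.window` and `‖U_t‖ ≤ 1`
(an `ε/3` argument).  The second statement: `‖U_t z_t − U_s z_s‖ ≤ ‖z_t − z_s‖ + ‖(U_t − U_s) z_s‖`.
-/

set_option autoImplicit false

namespace Crest.Agent.R84

open Crest.OpAlg

variable {H : Type*} [NormedAddCommGroup H] [InnerProductSpace ℂ H] [CompleteSpace H]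

theorem norm_character_sub_le (s t u : ℝ) :
    ‖LineCalculus.character t u - LineCalculus.character s u‖ ≤ |t - s| * |u| := by
  rw [character_apply, character_apply]
  have h1 : Complex.exp (Complex.I * ((t * u : ℝ) : ℂ)) - Complex.exp (Complex.I * ((s * u : ℝ) : ℂ))
      = Complex.exp (Complex.I * ((s * u : ℝ) : ℂ)) *
        (Complex.exp (Complex.I * (((t - s) * u : ℝ) : ℂ)) - 1) := by
    rw [mul_sub, ← Complex.exp_add, mul_one]
    congr 2
    push_cast
    ring
  rw [h1, norm_mul]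
  have h2 : ‖Complex.exp (Complex.I * ((s * u : ℝ) : ℂ))‖ = 1 := by
    rw [mul_comm]; exact Complex.norm_exp_ofReal_mul_I _
  rw [h2, one_mul]
  refine le_trans Real.norm_exp_I_mul_ofReal_sub_one_le ?_
  rw [Real.norm_eq_abs, abs_mul]

theorem norm_character_sub_mul_le (χ : BCF) (R : ℝ) (hR0 : 0 ≤ R)
    (hR : ∀ u : ℝ, R < |u| → χ u = 0) (s t : ℝ) :
    ‖(LineCalculus.character t - LineCalculus.character s) * χ‖ ≤ |t - s| * R * ‖χ‖ := by
  rw [BoundedContinuousFunction.norm_le (by positivity)]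
  intro u
  rw [BoundedContinuousFunction.mul_apply, BoundedContinuousFunction.sub_apply, norm_mul]
  by_cases hu : R < |u|
  · rw [hR u hu]; simp; positivity
  · have hu' : |u| ≤ R := not_lt.mp hu
    have h1 := norm_character_sub_le s t u
    have h2 : ‖χ u‖ ≤ ‖χ‖ := χ.norm_coe_le_norm u
    calc _ ≤ (|t - s| * |u|) * ‖χ‖ := by gcongr
      _ ≤ _ := by gcongr

theorem exists_radius_of_compactSupport (χ : BCF) (hχ : HasCompactSupport (χ : ℝ → ℂ)) :
    ∃ R : ℝ, 0 ≤ R ∧ ∀ u : ℝ, R < |u| → χ u = 0 := by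
  obtain ⟨R, hR⟩ := hχ.isCompact.isBounded.subset_closedBall (0 : ℝ)
  refine ⟨max R 0, le_max_right _ _, fun u hu => ?_⟩
  by_contra hne
  have : u ∈ tsupport (χ : ℝ → ℂ) := subset_tsupport _ hne
  have h2 := hR this
  rw [mem_closedBall_zero_iff, Real.norm_eq_abs] at h2
  exact absurd (lt_of_le_of_lt (le_max_left R 0) hu) (not_lt.mpr h2)

theorem continuous_wave_apply (D : LineCalculus H) (x : H) :
    Continuous fun t : ℝ => D.wave t x := by
  rw [Metric.continuous_iff]
  intro s ε hε
  obtain ⟨χ, hχ, hx⟩ := D.window x (ε / 3) (by positivity)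
  obtain ⟨R, hR0, hR⟩ := exists_radius_of_compactSupport χ hχ
  set C : ℝ := R * ‖χ‖ * ‖x‖ with hC
  have hC0 : 0 ≤ C := by positivity
  refine ⟨ε / 3 / (C + 1), by positivity, fun t ht => ?_⟩
  rw [dist_eq_norm] at ht ⊢
  rw [Real.norm_eq_abs] at ht
  have e1 : D.wave t x - D.wave s x
      = D.wave s (D.apply χ x - x) - D.wave t (D.apply χ x - x)
        + D.apply ((LineCalculus.character t - LineCalculus.character s) * χ) x := by
    rw [apply_mul_apply, map_sub]
    simp only [LineCalculus.wave, map_sub, sub_apply]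
    abel
  have h3 : ‖D.apply ((LineCalculus.character t - LineCalculus.character s) * χ) x‖
      ≤ |t - s| * C := by
    refine le_trans (apply_apply_norm_le D _ x) ?_
    have := norm_character_sub_mul_le χ R hR0 hR s t
    calc _ ≤ (|t - s| * R * ‖χ‖) * ‖x‖ := by gcongr
      _ = _ := by rw [hC]; ring
  have h4 : |t - s| * C < ε / 3 := by
    calc |t - s| * C ≤ |t - s| * (C + 1) := by gcongr; linarith
      _ < ε / 3 / (C + 1) * (C + 1) := by gcongr
      _ = ε / 3 := by field_simp
  rw [e1]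
  calc _ ≤ ‖D.wave s (D.apply χ x - x) - D.wave t (D.apply χ x - x)‖
        + ‖D.apply ((LineCalculus.character t - LineCalculus.character s) * χ) x‖ := norm_add_le _ _
    _ ≤ (‖D.wave s (D.apply χ x - x)‖ + ‖D.wave t (D.apply χ x - x)‖)
        + ‖D.apply ((LineCalculus.character t - LineCalculus.character s) * χ) x‖ := by
          gcongr; exact norm_sub_le _ _
    _ < (ε / 3 + ε / 3) + ε / 3 := by
          rw [norm_wave_apply, norm_wave_apply]
          linarith
    _ = ε := by ring

theorem continuous_wave_comp (D : LineCalculus H) (z : ℝ → H) (hz : Continuous z) :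
    Continuous fun t : ℝ => D.wave t (z t) := by
  rw [Metric.continuous_iff]
  intro s ε hε
  obtain ⟨d1, hd1, h1⟩ := (Metric.continuous_iff.mp hz) s (ε / 2) (by positivity)
  obtain ⟨d2, hd2, h2⟩ := (Metric.continuous_iff.mp (continuous_wave_apply D (z s))) s (ε / 2)
    (by positivity)
  refine ⟨min d1 d2, lt_min hd1 hd2, fun t ht => ?_⟩
  have a1 := h1 t (lt_of_lt_of_le ht (min_le_left _ _))
  have a2 := h2 t (lt_of_lt_of_le ht (min_le_right _ _))
  rw [dist_eq_norm] at a1 a2 ⊢
  have e1 : D.wave t (z t) - D.wave s (z s)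
      = D.wave t (z t - z s) + (D.wave t (z s) - D.wave s (z s)) := by
    rw [map_sub]; abel
  rw [e1]
  calc _ ≤ ‖D.wave t (z t - z s)‖ + ‖D.wave t (z s) - D.wave s (z s)‖ := norm_add_le _ _
    _ < ε / 2 + ε / 2 := by rw [norm_wave_apply]; linarith
    _ = ε := by ring

theorem continuous_conj_apply (D : LineCalculus H) (a : H →L[ℂ] H) (x : H) :
    Continuous fun t : ℝ => D.wave t (a (D.wave (-t) x)) := by
  apply continuous_wave_comp D (fun t => a (D.wave (-t) x))
  exact a.continuous.comp ((continuous_wave_apply D x).comp continuous_neg)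

end Crest.Agent.R84
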