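import Crest.Agent.R84.Calc

/-!
# R84 task MONO (section A2): monotonicity of the calculus.
`‖f(D)x‖² = ⟨x,(|f|²)(D)x⟩`; `|g|²−|f|² = h²` with `h = sqrt(|g|²−|f|²)` real bounded continuous, so
`⟨x,(|g|²−|f|²)(D)x⟩ = ‖h(D)x‖² ≥ 0`.
-/

set_option autoImplicit false

namespace Crest.Agent.R84

open Crest.OpAlg

variable {H : Type*} [NormedAddCommGroup H] [InnerProductSpace ℂ H] [CompleteSpace H]

theorem MONO_norm_sq (D : LineCalculus H) (f : BCF) (x : H) :
    ((‖D.apply f x‖ ^ 2 : ℝ) : ℂ) = inner ℂ x (D.apply (star f * f) x) := by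
  rw [apply_mul_apply, ← inner_apply_left, inner_self_eq_norm_sq_to_K]
  norm_cast

/-- the function `sqrt(|g|²−|f|²)` -/
noncomputable def MONO_h (f g : BCF) : BCF :=
  BoundedContinuousFunction.ofNormedAddCommGroup
    (fun u : ℝ => ((Real.sqrt (‖g u‖ ^ 2 - ‖f u‖ ^ 2) : ℝ) : ℂ))
    (by
      have hf : Continuous fun u => f u := f.continuous
      have hg : Continuous fun u => g u := g.continuous
      fun_prop)
    ‖g‖
    (fun u => by
      rw [Complex.norm_real, Real.norm_eq_abs, abs_of_nonneg (Real.sqrt_nonneg _)]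
      calc Real.sqrt (‖g u‖ ^ 2 - ‖f u‖ ^ 2) ≤ Real.sqrt (‖g u‖ ^ 2) :=
            Real.sqrt_le_sqrt (by nlinarith [norm_nonneg (f u)])
        _ = ‖g u‖ := Real.sqrt_sq (norm_nonneg _)
        _ ≤ ‖g‖ := g.norm_coe_le_norm u)

theorem MONO_h_sq (f g : BCF) (h : ∀ u, ‖f u‖ ≤ ‖g u‖) :
    star (MONO_h f g) * MONO_h f g = star g * g - star f * f := by
  ext u
  have h0 : 0 ≤ ‖g u‖ ^ 2 - ‖f u‖ ^ 2 := by
    have := h u
    nlinarith [norm_nonneg (f u), norm_nonneg (g u)]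
  simp only [BoundedContinuousFunction.coe_mul, BoundedContinuousFunction.coe_sub,
    BoundedContinuousFunction.coe_star, Pi.mul_apply, Pi.sub_apply, Pi.star_apply, MONO_h,
    BoundedContinuousFunction.coe_ofNormedAddCommGroup, RCLike.star_def, Complex.conj_ofReal,
    Complex.conj_mul']
  rw [← Complex.ofReal_mul, Real.mul_self_sqrt h0]
  push_cast
  ring

theorem apply_norm_mono (D : LineCalculus H) (f g : BCF) (h : ∀ u, ‖f u‖ ≤ ‖g u‖) (x : H) :
    ‖D.apply f x‖ ≤ ‖D.apply g x‖ := by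
  have h1 := MONO_norm_sq D (MONO_h f g) x
  rw [MONO_h_sq f g h, map_sub, _root_.sub_apply, inner_sub_right,
    ← MONO_norm_sq, ← MONO_norm_sq] at h1
  have h2 : ‖D.apply (MONO_h f g) x‖ ^ 2 = ‖D.apply g x‖ ^ 2 - ‖D.apply f x‖ ^ 2 := by
    exact_mod_cast h1
  have h3 : ‖D.apply f x‖ ^ 2 ≤ ‖D.apply g x‖ ^ 2 := by
    nlinarith [sq_nonneg ‖D.apply (MONO_h f g) x‖]
  exact le_of_sq_le_sq h3 (norm_nonneg _) |> fun h => h

end Crest.Agent.R84
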