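import Crest.Agent.R84.Calc

/-!
# R84 task SUPP (sections A4, A5): non-degeneracy and spectral supports.
-/

set_option autoImplicit false

namespace Crest.Agent.R84

open Crest.OpAlg

variable {H : Type*} [NormedAddCommGroup H] [InnerProductSpace ℂ H] [CompleteSpace H]

/-- A4: by `D.window`. -/
theorem eq_zero_of_forall_compact (D : LineCalculus H) (y : H)
    (h : ∀ f : BCF, HasCompactSupport (f : ℝ → ℂ) → D.apply f y = 0) : y = 0 := by
  by_contra hy
  have hpos : 0 < ‖y‖ := norm_pos_iff.mpr hy
  obtain ⟨f, hf, hlt⟩ := D.window y ‖y‖ hpos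
  rw [h f hf, zero_sub, norm_neg] at hlt
  exact lt_irrefl _ hlt

theorem supp_zero (D : LineCalculus H) (K : Set ℝ) : D.SupportedIn K (0 : H) := by
  intro f _
  simp

theorem supp_add (D : LineCalculus H) {K : Set ℝ} {x y : H} (hx : D.SupportedIn K x)
    (hy : D.SupportedIn K y) : D.SupportedIn K (x + y) := by
  intro f hf
  rw [map_add, hx f hf, hy f hf, add_zero]

theorem supp_sub (D : LineCalculus H) {K : Set ℝ} {x y : H} (hx : D.SupportedIn K x)
    (hy : D.SupportedIn K y) : D.SupportedIn K (x - y) := by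
  intro f hf
  rw [map_sub, hx f hf, hy f hf, sub_zero]

theorem supp_smul (D : LineCalculus H) {K : Set ℝ} {x : H} (c : ℂ) (hx : D.SupportedIn K x) :
    D.SupportedIn K (c • x) := by
  intro f hf
  rw [map_smul, hx f hf, smul_zero]

theorem supp_mono (D : LineCalculus H) {K K' : Set ℝ} {x : H} (hK : K ⊆ K')
    (hx : D.SupportedIn K x) : D.SupportedIn K' x := by
  intro f hf
  exact hx f (fun u hu => hf u (hK hu))

theorem supp_apply (D : LineCalculus H) {K : Set ℝ} {x : H} (g : BCF) (hx : D.SupportedIn K x) :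
    D.SupportedIn K (D.apply g x) := by
  intro f hf
  have h1 : D.apply f (D.apply g x) = D.apply (f * g) x := by
    rw [map_mul]; rfl
  rw [h1]
  apply hx
  intro u hu
  rw [BoundedContinuousFunction.mul_apply, hf u hu, zero_mul]

theorem supp_wave (D : LineCalculus H) {K : Set ℝ} {x : H} (t : ℝ) (hx : D.SupportedIn K x) :
    D.SupportedIn K (D.wave t x) :=
  supp_apply D (LineCalculus.character t) hx

theorem supp_apply_congr (D : LineCalculus H) {K : Set ℝ} {x : H} (hx : D.SupportedIn K x)
    (f g : BCF) (hfg : ∀ u ∈ K, f u = g u) : D.apply f x = D.apply g x := by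
  have h1 : D.apply (f - g) x = 0 := by
    apply hx
    intro u hu
    rw [BoundedContinuousFunction.sub_apply, hfg u hu, sub_self]
  rw [map_sub, sub_apply] at h1
  exact sub_eq_zero.mp h1

theorem supp_apply_eq_self (D : LineCalculus H) {K : Set ℝ} {x : H} (hx : D.SupportedIn K x)
    (f : BCF) (hf : ∀ u ∈ K, f u = 1) : D.apply f x = x := by
  have h1 := supp_apply_congr D hx f 1 (fun u hu => by rw [hf u hu]; rfl)
  rw [h1, map_one]; rfl

theorem supp_apply_of_zero_off (D : LineCalculus H) (K : Set ℝ) (f : BCF)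
    (hf : ∀ u, u ∉ K → f u = 0) (z : H) : D.SupportedIn K (D.apply f z) := by
  intro g hg
  have h1 : D.apply g (D.apply f z) = D.apply (g * f) z := by
    rw [map_mul]; rfl
  have h2 : g * f = 0 := by
    ext u
    rw [BoundedContinuousFunction.mul_apply]
    by_cases hu : u ∈ K
    · rw [hg u hu, zero_mul]; rfl
    · rw [hf u hu, mul_zero]; rfl
  rw [h1, h2, map_zero]; rfl

end Crest.Agent.R84
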