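import Mathlib
import Crest.Prelude.Def_ModularData

/-!
# Row 84 (S0112): common definitions

Paper proof: `select body from readme where id=4` in the team database (sections A–J).
Notation: `ξ = S.vac`, `f(D) = S.D.apply f`, `U_t = S.D.wave t`, `σ_t(a) = S.flow t a`.
-/

set_option autoImplicit false

namespace Crest.Agent.R84

open Crest.OpAlg

/-- bounded continuous complex functions on the line -/
abbrev BCF := BoundedContinuousFunction ℝ ℂ

variable {H : Type*} [NormedAddCommGroup H] [InnerProductSpace ℂ H] [CompleteSpace H]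

/-- `β(w) = ‖w ξ‖²` -/
noncomputable def beta (S : ModularDatum H) (w : H →L[ℂ] H) : ℝ := ‖w S.vac‖ ^ 2

/-- `γ(w) = ‖w⋆ ξ‖²` -/
noncomputable def gam (S : ModularDatum H) (w : H →L[ℂ] H) : ℝ := ‖star w S.vac‖ ^ 2

/-- `X(w) = ‖w⋆ w ξ‖²` -/
noncomputable def XX (S : ModularDatum H) (w : H →L[ℂ] H) : ℝ := ‖(star w * w) S.vac‖ ^ 2

/-- `m(w) = mean_r ‖T U_r w ξ‖²` -/
noncomputable def mm (S : ModularDatum H) (ω : Ultrafilter ℕ) (T w : H →L[ℂ] H) : ℝ :=
  ultraMean ω (fun r : ℝ => ‖T (S.D.wave r (w S.vac))‖ ^ 2)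

/-- the potential `Ψ = m − μ β − κ X` -/
noncomputable def Psi (S : ModularDatum H) (ω : Ultrafilter ℕ) (T : H →L[ℂ] H) (μ κ : ℝ)
    (w : H →L[ℂ] H) : ℝ :=
  mm S ω T w - μ * beta S w - κ * XX S w

/-- bounded continuous real functions (the only functions to which `ultraMean` is applied) -/
def BC (f : ℝ → ℝ) : Prop := Continuous f ∧ ∃ B : ℝ, ∀ t, |f t| ≤ B

end Crest.Agent.R84
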