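import Crest.Agent.R84.MeanOp

/-!
# R84 task ERG (section E): weak mean ergodic lemma.
Take `Y` from `exists_mean_operator`.
* `Y ∈ S.M`: `S.M.commutant_commutant` / `VonNeumannAlgebra.mem_commutant_iff`: for `b` in the commutant, each `σ_t(y) ∈ M`
  commutes with `b`, so `⟨x, Y b x'⟩ = mean ⟨x, σ_t(y) b x'⟩ = mean ⟨b⋆x, σ_t(y) x'⟩ = ⟨b⋆ x, Y x'⟩ = ⟨x, b Y x'⟩` (`ext_inner_left`,
  `Complex.ext`).
* `σ_r(Y) = Y`: `⟨x, U_r Y U_{-r} x'⟩ = ⟨U_{-r}x, Y U_{-r}x'⟩ = mean_t ⟨x, σ_{r+t}(y) x'⟩ = mean_t ⟨x,σ_t(y)x'⟩` (`ultraMean_shift`).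
* `herg` gives `Y = c • 1`; `c = ⟨ξ,Yξ⟩ = mean ⟨ξ,σ_t(y)ξ⟩ = ⟨ξ,yξ⟩` (`flow_vac`, `wave_vac`, `inner_wave_right`, `ultraMean_const`, `S.norm_vac`).
-/

set_option autoImplicit false

namespace Crest.Agent.R84

open Crest.OpAlg Filter

variable {H : Type*} [NormedAddCommGroup H] [InnerProductSpace ℂ H] [CompleteSpace H]

theorem ergodic_mean (S : ModularDatum H) (herg : S.Ergodic) (ω : Ultrafilter ℕ)
    (hω : (ω : Filter ℕ) ≤ atTop) {y : H →L[ℂ] H} (hy : y ∈ S.M) (x x' : H) :
    ultraMean ω (fun t : ℝ => (inner ℂ x (S.flow t y x')).re) =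
      (inner ℂ S.vac (y S.vac) * inner ℂ x x').re := by
  obtain ⟨Y, hY⟩ := exists_mean_operator S ω y
  -- `Y ∈ M`
  have hYM : Y ∈ S.M := by
    rw [← S.M.commutant_commutant, VonNeumannAlgebra.mem_commutant_iff]
    intro b hb
    rw [VonNeumannAlgebra.mem_commutant_iff] at hb
    have key : ∀ (t : ℝ) (z z' : H),
        inner ℂ (ContinuousLinearMap.adjoint b z) (S.flow t y z') =
          inner ℂ z (S.flow t y (b z')) := by
      intro t z z'
      rw [ContinuousLinearMap.adjoint_inner_left]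
      have h1 := hb _ (flow_mem S t hy)
      have h2 := congrArg (fun A : H →L[ℂ] H => A z') h1
      simp only [mul_apply_eq_comp] at h2
      rw [h2]
    ext z'
    refine ext_inner_left ℂ fun z => ?_
    simp only [mul_apply_eq_comp]
    rw [← ContinuousLinearMap.adjoint_inner_left]
    apply Complex.ext
    · rw [(hY _ _).1, (hY _ _).1]
      simp only [key]
    · rw [(hY _ _).2, (hY _ _).2]
      simp only [key]
  -- `σ_r(Y) = Y`
  have hYfix : ∀ r : ℝ, S.flow r Y = Y := by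
    intro r
    have key : ∀ (t : ℝ) (z z' : H),
        inner ℂ (S.D.wave (-r) z) (S.flow t y (S.D.wave (-r) z')) =
          inner ℂ z (S.flow (t + r) y z') := by
      intro t z z'
      rw [← inner_flow, flow_flow, add_comm]
    ext z'
    refine ext_inner_left ℂ fun z => ?_
    rw [inner_flow]
    apply Complex.ext
    · rw [(hY _ _).1, (hY _ _).1]
      simp only [key]
      exact ultraMean_shift ω hω (bc_inner_flow_re S y z z') r
    · rw [(hY _ _).2, (hY _ _).2]
      simp only [key]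
      exact ultraMean_shift ω hω (bc_inner_flow_im S y z z') r
  obtain ⟨c, hc⟩ := herg Y hYM hYfix
  have hvv : inner ℂ S.vac S.vac = (1 : ℂ) := by
    rw [inner_self_eq_norm_sq_to_K, S.norm_vac]; simp
  have hconst : ∀ t : ℝ, inner ℂ S.vac (S.flow t y S.vac) = inner ℂ S.vac (y S.vac) := by
    intro t
    rw [flow_vac, inner_wave_right, wave_vac]
  have hcval : c = inner ℂ S.vac (y S.vac) := by
    have h1 : inner ℂ S.vac (Y S.vac) = c := by
      rw [hc]
      simp [S.norm_vac]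
    rw [← h1]
    apply Complex.ext
    · rw [(hY _ _).1]
      simp only [hconst]
      exact ultraMean_const ω hω _
    · rw [(hY _ _).2]
      simp only [hconst]
      exact ultraMean_const ω hω _
  rw [← (hY x x').1, hc, ← hcval]
  simp

theorem ergodic_mean_neg (S : ModularDatum H) (herg : S.Ergodic) (ω : Ultrafilter ℕ)
    (hω : (ω : Filter ℕ) ≤ atTop) {y : H →L[ℂ] H} (hy : y ∈ S.M) (x x' : H) :
    ultraMean ω (fun t : ℝ => (inner ℂ x (S.flow (-t) y x')).re) =
      (inner ℂ S.vac (y S.vac) * inner ℂ x x').re := by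
  rw [← ergodic_mean S herg ω hω hy x x']
  exact ultraMean_reflect ω (bc_inner_flow_re S y x x')

end Crest.Agent.R84
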