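import Crest.Agent.R84.Mean

/-!
# R84 task SHIFT (section C, part 2): translation and reflection invariance of the mean.
`|windowMean (f(·+r)) k − windowMean f k| ≤ 2 |r| B / (2k)` (the windows `[-k,k]` and `[-k+r,k+r]` differ by two
intervals of length `|r|`), which tends to `0` along `atTop`, hence along `ω`.
Reflection: `windowMean (f ∘ neg) k = windowMean f k` exactly (the window is symmetric).
-/

set_option autoImplicit false

namespace Crest.Agent.R84

open Crest.OpAlg Filter MeasureTheory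
open scoped Topology

theorem windowMean_eq' (f : ℝ → ℝ) (k : ℕ) :
    windowMean f k = (2 * (k : ℝ))⁻¹ * ∫ t in (-(k : ℝ))..(k : ℝ), f t := by
  rw [windowMean_eq, intervalIntegral.integral_of_le (by
    have : (0 : ℝ) ≤ (k : ℝ) := Nat.cast_nonneg k
    linarith), integral_Icc_eq_integral_Ioc]

theorem windowMean_shift_sub_abs_le {f : ℝ → ℝ} (hf : Continuous f) {B : ℝ}
    (hB : ∀ t, |f t| ≤ B) (r : ℝ) (k : ℕ) :
    |windowMean (fun t => f (t + r)) k - windowMean f k| ≤ (2 * (k : ℝ))⁻¹ * (2 * (B * |r|)) := by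
  rw [windowMean_eq', windowMean_eq', ← mul_sub, abs_mul,
    abs_of_nonneg (by positivity : (0 : ℝ) ≤ (2 * (k : ℝ))⁻¹)]
  apply mul_le_mul_of_nonneg_left _ (by positivity)
  rw [intervalIntegral.integral_comp_add_right (fun t => f t) r]
  have hint : ∀ a b : ℝ, IntervalIntegrable f volume a b := fun a b => hf.intervalIntegrable a b
  rw [intervalIntegral.integral_interval_sub_interval_comm (hint _ _) (hint _ _) (hint _ _)]
  have h1 : |∫ t in (-(k : ℝ) + r)..(-(k : ℝ)), f t| ≤ B * |r| := by
    have := intervalIntegral.norm_integral_le_of_norm_le_const (a := -(k : ℝ) + r)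
      (b := -(k : ℝ)) (f := f) (C := B) (fun t _ => by simpa using hB t)
    simpa [abs_neg] using this
  have h2 : |∫ t in ((k : ℝ) + r)..((k : ℝ)), f t| ≤ B * |r| := by
    have := intervalIntegral.norm_integral_le_of_norm_le_const (a := (k : ℝ) + r)
      (b := (k : ℝ)) (f := f) (C := B) (fun t _ => by simpa using hB t)
    simpa [abs_neg] using this
  calc |(∫ t in (-(k : ℝ) + r)..(-(k : ℝ)), f t) - ∫ t in ((k : ℝ) + r)..((k : ℝ)), f t|
      ≤ |∫ t in (-(k : ℝ) + r)..(-(k : ℝ)), f t| + |∫ t in ((k : ℝ) + r)..((k : ℝ)), f t| :=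
        abs_sub _ _
    _ ≤ 2 * (B * |r|) := by linarith

theorem ultraMean_shift (ω : Ultrafilter ℕ) (hω : (ω : Filter ℕ) ≤ atTop) {f : ℝ → ℝ} (hf : BC f)
    (r : ℝ) : ultraMean ω (fun t => f (t + r)) = ultraMean ω f := by
  apply ultraMean_eq_of_tendsto
  obtain ⟨hfc, B, hB⟩ := hf
  have h0 : Tendsto (fun k : ℕ => (2 * (k : ℝ))⁻¹ * (2 * (B * |r|))) atTop (𝓝 0) := by
    have h1 : Tendsto (fun k : ℕ => (2 * (k : ℝ))) atTop atTop :=
      Tendsto.const_mul_atTop (by norm_num) tendsto_natCast_atTop_atTop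
    simpa using (tendsto_inv_atTop_zero.comp h1).mul_const (2 * (B * |r|))
  have h1 : Tendsto (fun k : ℕ => windowMean (fun t => f (t + r)) k - windowMean f k) atTop
      (𝓝 0) :=
    squeeze_zero_norm (fun k => by
      simpa using windowMean_shift_sub_abs_le hfc hB r k) h0
  have h2 := (h1.mono_left hω).add (tendsto_ultraMean ω ⟨hfc, B, hB⟩)
  simpa using h2

theorem windowMean_comp_neg (f : ℝ → ℝ) (k : ℕ) :
    windowMean (fun t => f (-t)) k = windowMean f k := by
  rw [windowMean_eq', windowMean_eq', intervalIntegral.integral_comp_neg (fun t => f t)]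
  simp

theorem ultraMean_reflect (ω : Ultrafilter ℕ) {f : ℝ → ℝ} (hf : BC f) :
    ultraMean ω (fun t => f (-t)) = ultraMean ω f := by
  unfold ultraMean
  congr 1
  funext k
  exact windowMean_comp_neg f k

end Crest.Agent.R84
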