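import Crest.Agent.R84.CalcSupp

/-!
# R84 task STAR (section B2): `‖a⋆ξ‖ ≤ e^{be/2} ‖aξ‖` when `aξ` is spectrally supported in `[al,be]`.
`(aξ,a⋆ξ) ∈ closure(range) = {p | HalfExp p.1 (J p.2)}` (`S.tomita`, `subset_closure`), so `HalfExp (aξ) (J a⋆ξ)`.
Let `m(u) = min(e^{u/2}, e^{be/2})` (bounded continuous), `y' = m(D) aξ`. For `f ∈ C_c`, `g = f e^{u/2}` is bounded continuous and
`f(D) J a⋆ξ = g(D) aξ = (f m)(D) aξ = f(D) y'` because `g − f m` vanishes on `Icc al be`. By `eq_zero_of_forall_compact`,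
`J a⋆ξ = y'`; `‖y'‖ ≤ e^{be/2}‖aξ‖` (`apply_apply_norm_le`), `J` is isometric.
-/

set_option autoImplicit false

namespace Crest.Agent.R84

open Crest.OpAlg

variable {H : Type*} [NormedAddCommGroup H] [InnerProductSpace ℂ H] [CompleteSpace H]

/-- the truncated half exponential `u ↦ min(e^{u/2}, e^{be/2})` -/
noncomputable def truncHalfExp (be : ℝ) : BCF :=
  BoundedContinuousFunction.ofNormedAddCommGroup
    (fun u : ℝ => ((min (Real.exp (u / 2)) (Real.exp (be / 2)) : ℝ) : ℂ))
    (by fun_prop) (Real.exp (be / 2))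
    (fun u => by
      rw [Complex.norm_real, Real.norm_eq_abs,
        abs_of_nonneg (le_min (Real.exp_pos _).le (Real.exp_pos _).le)]
      exact min_le_right _ _)

theorem truncHalfExp_apply (be u : ℝ) :
    truncHalfExp be u = ((min (Real.exp (u / 2)) (Real.exp (be / 2)) : ℝ) : ℂ) := rfl

theorem norm_truncHalfExp_le (be : ℝ) : ‖truncHalfExp be‖ ≤ Real.exp (be / 2) :=
  BoundedContinuousFunction.norm_ofNormedAddCommGroup_le _ (Real.exp_pos _).le _

theorem halfExp_of_mem (S : ModularDatum H) {a : H →L[ℂ] H} (ha : a ∈ S.M) :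
    S.D.HalfExp (a S.vac) (S.J (star a S.vac)) := by
  have h1 : ((a S.vac, star a S.vac) : H × H) ∈
      closure (Set.range fun a : S.M => ((a : H →L[ℂ] H) S.vac, star (a : H →L[ℂ] H) S.vac)) :=
    subset_closure ⟨⟨a, ha⟩, rfl⟩
  rw [S.tomita] at h1
  exact h1

theorem star_bound (S : ModularDatum H) {a : H →L[ℂ] H} (ha : a ∈ S.M) (al be : ℝ)
    (h : S.D.SupportedIn (Set.Icc al be) (a S.vac)) :
    ‖star a S.vac‖ ≤ Real.exp (be / 2) * ‖a S.vac‖ := by
  have hH := halfExp_of_mem S ha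
  have key : S.J (star a S.vac) - S.D.apply (truncHalfExp be) (a S.vac) = 0 := by
    apply eq_zero_of_forall_compact S.D
    intro f hf
    have hcont : Continuous (fun u : ℝ => f u * ((Real.exp (u / 2) : ℝ) : ℂ)) := by
      have := f.continuous
      fun_prop
    have hcs : HasCompactSupport (fun u : ℝ => f u * ((Real.exp (u / 2) : ℝ) : ℂ)) :=
      hf.mul_right
    obtain ⟨C, hC⟩ := hcont.bounded_above_of_compact_support hcs
    let g : BCF := BoundedContinuousFunction.ofNormedAddCommGroup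
      (fun u : ℝ => f u * ((Real.exp (u / 2) : ℝ) : ℂ)) hcont C hC
    have hg : ∀ u : ℝ, g u = f u * ((Real.exp (u / 2) : ℝ) : ℂ) := fun u => rfl
    have h1 : S.D.apply f (S.J (star a S.vac)) = S.D.apply g (a S.vac) := hH f g hg
    have h2 : S.D.apply g (a S.vac) = S.D.apply (f * truncHalfExp be) (a S.vac) := by
      apply supp_apply_congr S.D h
      intro u hu
      rw [hg, BoundedContinuousFunction.mul_apply, truncHalfExp_apply, min_eq_left]
      apply Real.exp_le_exp.mpr
      linarith [hu.2]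
    have h3 : S.D.apply (f * truncHalfExp be) (a S.vac)
        = S.D.apply f (S.D.apply (truncHalfExp be) (a S.vac)) := by
      rw [map_mul]; rfl
    rw [map_sub, h1, h2, h3, sub_self]
  have hJ : S.J (star a S.vac) = S.D.apply (truncHalfExp be) (a S.vac) := sub_eq_zero.mp key
  have hn : ‖star a S.vac‖ = ‖S.D.apply (truncHalfExp be) (a S.vac)‖ := by
    rw [← hJ, LinearIsometryEquiv.norm_map]
  rw [hn]
  calc ‖S.D.apply (truncHalfExp be) (a S.vac)‖
      ≤ ‖S.D.apply (truncHalfExp be)‖ * ‖a S.vac‖ := ContinuousLinearMap.le_opNorm _ _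
    _ ≤ ‖truncHalfExp be‖ * ‖a S.vac‖ := by
        gcongr
        exact apply_norm_le S.D _
    _ ≤ Real.exp (be / 2) * ‖a S.vac‖ := by
        gcongr
        exact norm_truncHalfExp_le be

theorem gam_le (S : ModularDatum H) {a : H →L[ℂ] H} (ha : a ∈ S.M) (al be : ℝ)
    (h : S.D.SupportedIn (Set.Icc al be) (a S.vac)) :
    gam S a ≤ Real.exp be * beta S a := by
  have h1 := star_bound S ha al be h
  unfold gam beta
  have h2 : Real.exp be = Real.exp (be / 2) ^ 2 := by
    rw [← Real.exp_nat_mul]; congr 1; push_cast; ring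
  rw [h2, ← mul_pow]
  exact pow_le_pow_left₀ (norm_nonneg _) h1 2

end Crest.Agent.R84
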