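import Crest.Agent.R84.Defs

/-!
# Row 84 (S0112), part I: truncation `v0 = w (1 + θ w⋆w)⁻¹`
-/

set_option autoImplicit false

namespace Crest.Agent.R84

open Crest.OpAlg
open scoped InnerProductSpace

variable {H : Type*} [NormedAddCommGroup H] [InnerProductSpace ℂ H] [CompleteSpace H]

/-- membership in a von Neumann algebra through the commutant -/
theorem mem_of_commute_commutant (M : VonNeumannAlgebra H) (z : H →L[ℂ] H)
    (h : ∀ c ∈ M.commutant, c * z = z * c) : z ∈ M := by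
  rw [← M.commutant_commutant, VonNeumannAlgebra.mem_commutant_iff]
  exact h

theorem four_re_inner_le (a b : H) : 4 * (⟪a, b⟫_ℂ).re ≤ ‖a + b‖ ^ 2 := by
  have h1 := @norm_add_sq ℂ H _ _ _ a b
  have h2 := @norm_sub_sq ℂ H _ _ _ a b
  have h3 : 0 ≤ ‖a - b‖ ^ 2 := by positivity
  simp only [RCLike.re_to_complex] at h1 h2
  nlinarith

theorem inner_star_mul_self (w : H →L[ℂ] H) (y : H) :
    ⟪y, (star w * w) y⟫_ℂ = ((‖w y‖ ^ 2 : ℝ) : ℂ) := by
  rw [ContinuousLinearMap.mul_apply, ContinuousLinearMap.star_eq_adjoint,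
    ContinuousLinearMap.adjoint_inner_right, inner_self_eq_norm_sq_to_K]
  norm_cast

theorem isUnit_one_add (w : H →L[ℂ] H) (θ : ℝ) (hθ : 0 < θ) :
    IsUnit ((1 : H →L[ℂ] H) + (θ : ℂ) • (star w * w)) := by
  refine ContinuousLinearMap.isUnit_of_forall_le_norm_inner_map _ (c := 1) one_pos ?_
  intro x
  have h : ⟪((1 : H →L[ℂ] H) + (θ : ℂ) • (star w * w)) x, x⟫_ℂ
      = ((‖x‖ ^ 2 + θ * ‖w x‖ ^ 2 : ℝ) : ℂ) := by
    rw [← inner_conj_symm]
    simp only [ContinuousLinearMap.add_apply, ContinuousLinearMap.one_apply,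
      ContinuousLinearMap.smul_apply, inner_add_right, inner_smul_right, inner_star_mul_self,
      inner_self_eq_norm_sq_to_K]
    simp
  rw [h, Complex.norm_real, Real.norm_eq_abs]
  have : 0 ≤ θ * ‖w x‖ ^ 2 := by positivity
  rw [abs_of_nonneg (by positivity)]
  simp
  linarith

theorem exists_trunc (S : ModularDatum H) (w : H →L[ℂ] H) (hw : w ∈ S.M) (θ : ℝ) (hθ : 0 < θ) :
    ∃ v0 : H →L[ℂ] H, v0 ∈ S.M ∧ ‖v0‖ ^ 2 ≤ 1 / (4 * θ) ∧
      ‖(w - v0) S.vac‖ ^ 2 ≤ θ / 4 * XX S w := by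
  obtain ⟨u, hu⟩ := isUnit_one_add w θ hθ
  set B : H →L[ℂ] H := (1 : H →L[ℂ] H) + (θ : ℂ) • (star w * w) with hB
  set g : H →L[ℂ] H := ((u⁻¹ : (H →L[ℂ] H)ˣ) : H →L[ℂ] H) with hg
  have hBg : B * g = 1 := by rw [← hu, hg]; exact u.mul_inv
  have hgB : g * B = 1 := by rw [← hu, hg]; exact u.inv_mul
  have hBM : B ∈ S.M := by
    rw [hB]
    exact add_mem (one_mem _) (S.M.toStarSubalgebra.smul_mem (mul_mem (star_mem hw) hw) _)
  have hgM : g ∈ S.M := by
    refine mem_of_commute_commutant _ _ fun c hc => ?_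
    have hcB : B * c = c * B := (VonNeumannAlgebra.mem_commutant_iff.mp hc) B hBM
    calc c * g = (g * B) * c * g := by rw [hgB, one_mul]
      _ = g * (B * c) * g := by simp only [mul_assoc]
      _ = g * (c * B) * g := by rw [hcB]
      _ = g * c * (B * g) := by simp only [mul_assoc]
      _ = g * c := by rw [hBg, mul_one]
  have hbound : ∀ x : H, ‖(w * g) x‖ ^ 2 ≤ 1 / (4 * θ) * ‖x‖ ^ 2 := by
    intro x
    set y := g x with hy
    have hx : x = y + (θ : ℂ) • (star w * w) y := by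
      have : (B * g) x = x := by rw [hBg]; rfl
      rw [← this, ContinuousLinearMap.mul_apply, hB]
      simp [hy]
    have h4 := four_re_inner_le y ((θ : ℂ) • (star w * w) y)
    rw [← hx, inner_smul_right, inner_star_mul_self] at h4
    have h5 : ((θ : ℂ) * ((‖w y‖ ^ 2 : ℝ) : ℂ)).re = θ * ‖w y‖ ^ 2 := by
      rw [← Complex.ofReal_mul, Complex.ofReal_re]
    rw [h5] at h4
    rw [ContinuousLinearMap.mul_apply, ← hy, div_mul_eq_mul_div, one_mul, le_div_iff₀ (by positivity)]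
    linarith
  have hnorm : ‖w * g‖ ^ 2 ≤ 1 / (4 * θ) := by
    have hc : 0 ≤ Real.sqrt (1 / (4 * θ)) := Real.sqrt_nonneg _
    have : ‖w * g‖ ≤ Real.sqrt (1 / (4 * θ)) := by
      refine ContinuousLinearMap.opNorm_le_bound _ hc fun x => ?_
      rw [← abs_of_nonneg (norm_nonneg ((w * g) x)),
        ← abs_of_nonneg (mul_nonneg hc (norm_nonneg x)), ← sq_le_sq, mul_pow,
        Real.sq_sqrt (by positivity)]
      exact hbound x
    calc ‖w * g‖ ^ 2 ≤ Real.sqrt (1 / (4 * θ)) ^ 2 := by gcongr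
      _ = 1 / (4 * θ) := Real.sq_sqrt (by positivity)
  refine ⟨w * g, mul_mem hw hgM, hnorm, ?_⟩
  have hdiff : w - w * g = (θ : ℂ) • ((w * g) * (star w * w)) := by
    have h1 : (1 : H →L[ℂ] H) - g = (θ : ℂ) • (g * (star w * w)) := by
      have : g * B = g + (θ : ℂ) • (g * (star w * w)) := by
        rw [hB, mul_add, mul_one, mul_smul_comm]
      rw [hgB] at this
      rw [this]; abel
    calc w - w * g = w * (1 - g) := by rw [mul_sub, mul_one]
      _ = (θ : ℂ) • ((w * g) * (star w * w)) := by rw [h1, mul_smul_comm, mul_assoc]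
  rw [hdiff, ContinuousLinearMap.smul_apply, norm_smul, ContinuousLinearMap.mul_apply, mul_pow]
  have h6 := hbound ((star w * w) S.vac)
  have h7 : ‖(θ : ℂ)‖ ^ 2 = θ ^ 2 := by rw [Complex.norm_real, Real.norm_eq_abs, sq_abs]
  rw [h7, XX]
  calc θ ^ 2 * ‖(w * g) ((star w * w) S.vac)‖ ^ 2
      ≤ θ ^ 2 * (1 / (4 * θ) * ‖(star w * w) S.vac‖ ^ 2) := by gcongr
    _ = θ / 4 * ‖(star w * w) S.vac‖ ^ 2 := by field_simp

end Crest.Agent.R84
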