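import Crest.Agent.R84.Flow
import Crest.Agent.R84.MeanShift
import Crest.Agent.R84.StarBound
import Crest.Agent.R84.CalcCont
import Crest.Agent.R84.Trunc
import Crest.Agent.R84.Ergodic

/-!
# Row 84 (S0112), part G: the doubling inequality
-/

set_option autoImplicit false

namespace Crest.Agent.R84

open Crest.OpAlg
open scoped InnerProductSpace

variable {H : Type*} [NormedAddCommGroup H] [InnerProductSpace ℂ H] [CompleteSpace H]

theorem BC_inner_flow (S : ModularDatum H) (y : H →L[ℂ] H) (x x' : H) :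
    BC (fun t : ℝ => (inner ℂ x (S.flow t y x')).re) := by
  constructor
  · have h1 : Continuous fun t : ℝ => S.flow t y x' := by
      simp_rw [flow_apply]
      exact continuous_conj_apply S.D y x'
    exact Complex.continuous_re.comp (continuous_const.inner h1)
  · refine ⟨‖x‖ * (‖y‖ * ‖x'‖), fun t => ?_⟩
    calc |(inner ℂ x (S.flow t y x')).re| ≤ ‖inner ℂ x (S.flow t y x')‖ := Complex.abs_re_le_norm _
      _ ≤ ‖x‖ * ‖S.flow t y x'‖ := norm_inner_le_norm _ _
      _ ≤ ‖x‖ * (‖y‖ * ‖x'‖) := by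
        gcongr
        exact (ContinuousLinearMap.le_opNorm _ _).trans (by gcongr; exact norm_flow_le S t y)

theorem BC_T_wave (S : ModularDatum H) (T : H →L[ℂ] H) (z : H) :
    BC (fun r : ℝ => ‖T (S.D.wave r z)‖ ^ 2) := by
  constructor
  · exact ((T.continuous.comp (continuous_wave_apply S.D z)).norm).pow 2
  · refine ⟨(‖T‖ * ‖z‖) ^ 2, fun r => ?_⟩
    rw [abs_of_nonneg (by positivity)]
    refine pow_le_pow_left₀ (norm_nonneg _) ?_ 2
    calc ‖T (S.D.wave r z)‖ ≤ ‖T‖ * ‖S.D.wave r z‖ := T.le_opNorm _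
      _ = ‖T‖ * ‖z‖ := by rw [norm_wave_apply]

theorem para (x y : H) : ‖x + y‖ ^ 2 + ‖x - y‖ ^ 2 = 2 * (‖x‖ ^ 2 + ‖y‖ ^ 2) := by
  have := parallelogram_law_with_norm ℂ x y
  nlinarith

theorem norm_ofReal_smul_sq (c : ℝ) (x : H) : ‖(c : ℂ) • x‖ ^ 2 = c * c * ‖x‖ ^ 2 := by
  rw [norm_smul, mul_pow, Complex.norm_real, Real.norm_eq_abs, sq_abs]; ring

/-- the mean part is exactly preserved on average -/
theorem mm_pair (S : ModularDatum H) (ω : Ultrafilter ℕ) (hω : (ω : Filter ℕ) ≤ Filter.atTop)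
    (T w : H →L[ℂ] H) (t c : ℝ) (hc : c * c = 1 / 2) :
    mm S ω T ((c : ℂ) • (w + S.flow t w)) + mm S ω T ((c : ℂ) • (w - S.flow t w))
      = 2 * mm S ω T w := by
  unfold mm
  have hF := BC_T_wave S T (w S.vac)
  rw [← ultraMean_add ω (BC_T_wave S T _) (BC_T_wave S T _)]
  have hpt : (fun r : ℝ => ‖T (S.D.wave r (((c : ℂ) • (w + S.flow t w)) S.vac))‖ ^ 2
        + ‖T (S.D.wave r (((c : ℂ) • (w - S.flow t w)) S.vac))‖ ^ 2)
      = fun r : ℝ => ‖T (S.D.wave r (w S.vac))‖ ^ 2 + ‖T (S.D.wave (r + t) (w S.vac))‖ ^ 2 := by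
    funext r
    have hb : S.flow t w S.vac = S.D.wave t (w S.vac) := flow_vac S t w
    have e1 : T (S.D.wave r (((c : ℂ) • (w + S.flow t w)) S.vac))
        = (c : ℂ) • (T (S.D.wave r (w S.vac)) + T (S.D.wave (r + t) (w S.vac))) := by
      rw [wave_add_apply, ← hb]
      simp
    have e2 : T (S.D.wave r (((c : ℂ) • (w - S.flow t w)) S.vac))
        = (c : ℂ) • (T (S.D.wave r (w S.vac)) - T (S.D.wave (r + t) (w S.vac))) := by
      rw [wave_add_apply, ← hb]
      simp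
    rw [e1, e2, norm_ofReal_smul_sq, norm_ofReal_smul_sq, hc, ← mul_add, para]
    ring
  rw [hpt, ultraMean_add ω hF (hF.comp_add t), ultraMean_shift ω hω hF t]
  ring

theorem beta_pair (S : ModularDatum H) (w : H →L[ℂ] H) (t c : ℝ) (hc : c * c = 1 / 2) :
    beta S ((c : ℂ) • (w + S.flow t w)) + beta S ((c : ℂ) • (w - S.flow t w)) = 2 * beta S w := by
  have hb := beta_flow S t w
  unfold beta at hb ⊢
  have e1 : ((c : ℂ) • (w + S.flow t w)) S.vac = (c : ℂ) • (w S.vac + S.flow t w S.vac) := by simp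
  have e2 : ((c : ℂ) • (w - S.flow t w)) S.vac = (c : ℂ) • (w S.vac - S.flow t w S.vac) := by simp
  rw [e1, e2, norm_ofReal_smul_sq, norm_ofReal_smul_sq, hc, ← mul_add, para, hb]
  ring

theorem star_ofReal_smul (c : ℝ) (a : H →L[ℂ] H) : star ((c : ℂ) • a) = (c : ℂ) • star a := by
  rw [star_smul]; simp

theorem norm_star_apply_sq (b : H →L[ℂ] H) (z : H) :
    ‖star b z‖ ^ 2 = (⟪z, (b * star b) z⟫_ℂ).re := by
  have := inner_star_mul_self (star b) z
  rw [star_star] at this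
  rw [this, Complex.ofReal_re]

/-- the three correlation functions -/
noncomputable def P1 (S : ModularDatum H) (w : H →L[ℂ] H) (t : ℝ) : ℝ :=
  (⟪(star w * w) S.vac, S.flow t (star w * w) S.vac⟫_ℂ).re

noncomputable def P2 (S : ModularDatum H) (w : H →L[ℂ] H) (t : ℝ) : ℝ :=
  (⟪w S.vac, S.flow t (w * star w) (w S.vac)⟫_ℂ).re

theorem XX_pair (S : ModularDatum H) (w : H →L[ℂ] H) (t c : ℝ) (hc : c * c = 1 / 2) :
    XX S ((c : ℂ) • (w + S.flow t w)) + XX S ((c : ℂ) • (w - S.flow t w))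
      ≤ XX S w + (P1 S w t + P2 S w t + P2 S w (-t)) := by
  set b := S.flow t w with hb
  have hXb : XX S b = XX S w := XX_flow S t w
  set u := (star w * w) S.vac with hu
  set v := (star b * b) S.vac with hv
  set p := (star w * b) S.vac with hp
  set q := (star b * w) S.vac with hq
  have e1 : (star ((c : ℂ) • (w + b)) * ((c : ℂ) • (w + b))) S.vac
      = ((c * c : ℝ) : ℂ) • ((u + v) + (p + q)) := by
    have hop : star ((c : ℂ) • (w + b)) * ((c : ℂ) • (w + b))
        = ((c * c : ℝ) : ℂ) • ((star w * w + star b * b) + (star w * b + star b * w)) := by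
      rw [star_ofReal_smul, smul_mul_smul_comm, star_add]
      push_cast
      congr 1
      noncomm_ring
    rw [hop]
    rfl
  have e2 : (star ((c : ℂ) • (w - b)) * ((c : ℂ) • (w - b))) S.vac
      = ((c * c : ℝ) : ℂ) • ((u + v) - (p + q)) := by
    have hop : star ((c : ℂ) • (w - b)) * ((c : ℂ) • (w - b))
        = ((c * c : ℝ) : ℂ) • ((star w * w + star b * b) - (star w * b + star b * w)) := by
      rw [star_ofReal_smul, smul_mul_smul_comm, star_sub]
      push_cast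
      congr 1
      noncomm_ring
    rw [hop]
    rfl
  have hP1 : (⟪u, v⟫_ℂ).re = P1 S w t := by
    rw [P1, flow_mul, flow_star]
  have hq2 : ‖q‖ ^ 2 = P2 S w t := by
    rw [P2, flow_mul, flow_star, ← hb, ← norm_star_apply_sq, hq]
    rfl
  have hp2 : ‖p‖ ^ 2 = P2 S w (-t) := by
    rw [P2, inner_flow, neg_neg, ← flow_vac, ← hb, ← norm_star_apply_sq, hp]
    rfl
  have huv : ‖u + v‖ ^ 2 = 2 * XX S w + 2 * P1 S w t := by
    have h1 := @norm_add_sq ℂ H _ _ _ u v
    simp only [RCLike.re_to_complex] at h1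
    have hv' : ‖v‖ ^ 2 = XX S w := by rw [← hXb]; rfl
    have hu' : ‖u‖ ^ 2 = XX S w := rfl
    rw [h1, hP1, hv', hu']; ring
  have hpq : ‖p + q‖ ^ 2 ≤ 2 * (P2 S w t + P2 S w (-t)) := by
    have h1 := para p q
    have h2 : 0 ≤ ‖p - q‖ ^ 2 := by positivity
    rw [← hq2, ← hp2]
    linarith
  unfold XX at *
  rw [e1, e2, norm_ofReal_smul_sq, norm_ofReal_smul_sq, hc, ← mul_add, para]
  nlinarith

theorem inner_vac_star_mul_self (S : ModularDatum H) (w : H →L[ℂ] H) :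
    ⟪S.vac, (star w * w) S.vac⟫_ℂ = ((beta S w : ℝ) : ℂ) := inner_star_mul_self w S.vac

theorem inner_vac_mul_star_self (S : ModularDatum H) (w : H →L[ℂ] H) :
    ⟪S.vac, (w * star w) S.vac⟫_ℂ = ((gam S w : ℝ) : ℂ) := by
  have := inner_star_mul_self (star w) S.vac
  rw [star_star] at this
  exact this

theorem mean_P1 (S : ModularDatum H) (herg : S.Ergodic) (ω : Ultrafilter ℕ)
    (hω : (ω : Filter ℕ) ≤ Filter.atTop) {w : H →L[ℂ] H} (hw : w ∈ S.M) :
    ultraMean ω (P1 S w) = beta S w ^ 2 := by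
  have h := ergodic_mean S herg ω hω (mul_mem (star_mem hw) hw)
    ((star w * w) S.vac) S.vac
  have h2 : ⟪(star w * w) S.vac, S.vac⟫_ℂ = ((beta S w : ℝ) : ℂ) := by
    rw [← inner_conj_symm, inner_vac_star_mul_self, Complex.conj_ofReal]
  rw [inner_vac_star_mul_self, h2, ← Complex.ofReal_mul, Complex.ofReal_re] at h
  unfold P1
  rw [h]; ring

theorem mean_P2 (S : ModularDatum H) (herg : S.Ergodic) (ω : Ultrafilter ℕ)
    (hω : (ω : Filter ℕ) ≤ Filter.atTop) {w : H →L[ℂ] H} (hw : w ∈ S.M) :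
    ultraMean ω (P2 S w) = gam S w * beta S w := by
  have h := ergodic_mean S herg ω hω (mul_mem hw (star_mem hw))
    (w S.vac) (w S.vac)
  have h2 : ⟪w S.vac, w S.vac⟫_ℂ = ((beta S w : ℝ) : ℂ) := by
    rw [inner_self_eq_norm_sq_to_K, beta]; norm_cast
  rw [inner_vac_mul_star_self, h2, ← Complex.ofReal_mul, Complex.ofReal_re] at h
  unfold P2
  rw [h]

theorem doubling (S : ModularDatum H) (herg : S.Ergodic) (ω : Ultrafilter ℕ)
    (hω : (ω : Filter ℕ) ≤ Filter.atTop) (T : H →L[ℂ] H) (al be : ℝ) {w : H →L[ℂ] H}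
    (hw : w ∈ S.M) (hsupp : S.D.SupportedIn (Set.Icc al be) (w S.vac)) (μ κ τ : ℝ)
    (hκ : 0 ≤ κ) (hτ : 0 < τ) :
    ∃ w' : H →L[ℂ] H, w' ∈ S.M ∧ S.D.SupportedIn (Set.Icc al be) (w' S.vac) ∧
      Psi S ω T μ κ w + κ * (XX S w / 2 - (1 / 2 + Real.exp be) * beta S w ^ 2 - τ)
        ≤ Psi S ω T μ κ w' := by
  have hBC1 : BC (P1 S w) := BC_inner_flow S _ _ _
  have hBC2 : BC (P2 S w) := BC_inner_flow S _ _ _
  have hBC3 : BC (fun t => P2 S w (-t)) := hBC2.comp_neg
  have hBCQ : BC (fun t => (P1 S w t + P2 S w t) + P2 S w (-t)) := (hBC1.add hBC2).add hBC3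
  have hmean : ultraMean ω (fun t => (P1 S w t + P2 S w t) + P2 S w (-t))
      = beta S w ^ 2 + 2 * (gam S w * beta S w) := by
    rw [ultraMean_add ω (hBC1.add hBC2) hBC3, ultraMean_add ω hBC1 hBC2, ultraMean_reflect ω hBC2,
      mean_P1 S herg ω hω hw, mean_P2 S herg ω hω hw]
    ring
  have hgam := gam_le S hw al be hsupp
  have hbeta0 : 0 ≤ beta S w := by unfold beta; positivity
  have hlt : ultraMean ω (fun t => (P1 S w t + P2 S w t) + P2 S w (-t))
      < 2 * ((1 / 2 + Real.exp be) * beta S w ^ 2 + τ) := by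
    rw [hmean]
    nlinarith [mul_le_mul_of_nonneg_right hgam hbeta0]
  obtain ⟨t, ht⟩ := exists_lt_of_ultraMean_lt ω hω hBCQ _ hlt
  obtain ⟨c, hc⟩ : ∃ c : ℝ, c * c = 1 / 2 :=
    ⟨Real.sqrt (1 / 2), Real.mul_self_sqrt (by norm_num)⟩
  have hbM : S.flow t w ∈ S.M := flow_mem S t hw
  have hbs := supp_flow_vac S t hsupp
  have h1 := mm_pair S ω hω T w t c hc
  have h2 := beta_pair S w t c hc
  have h3 := XX_pair S w t c hc
  have hsum : 2 * (Psi S ω T μ κ w + κ * (XX S w / 2 - (1 / 2 + Real.exp be) * beta S w ^ 2 - τ))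
      ≤ Psi S ω T μ κ ((c : ℂ) • (w + S.flow t w)) + Psi S ω T μ κ ((c : ℂ) • (w - S.flow t w)) := by
    unfold Psi
    have h4 : κ * (XX S ((c : ℂ) • (w + S.flow t w)) + XX S ((c : ℂ) • (w - S.flow t w)))
        ≤ κ * (XX S w + 2 * ((1 / 2 + Real.exp be) * beta S w ^ 2 + τ)) := by
      apply mul_le_mul_of_nonneg_left _ hκ
      linarith
    have h5 : μ * (beta S ((c : ℂ) • (w + S.flow t w)) + beta S ((c : ℂ) • (w - S.flow t w)))
        = μ * (2 * beta S w) := by rw [h2]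
    nlinarith
  rcases le_total (Psi S ω T μ κ ((c : ℂ) • (w + S.flow t w)))
      (Psi S ω T μ κ ((c : ℂ) • (w - S.flow t w))) with h | h
  · refine ⟨(c : ℂ) • (w - S.flow t w), S.M.toStarSubalgebra.smul_mem (sub_mem hw hbM) _, ?_, by linarith⟩
    have : ((c : ℂ) • (w - S.flow t w)) S.vac = (c : ℂ) • (w S.vac - S.flow t w S.vac) := by simp
    rw [this]
    exact supp_smul _ _ (supp_sub _ hsupp hbs)
  · refine ⟨(c : ℂ) • (w + S.flow t w), S.M.toStarSubalgebra.smul_mem (add_mem hw hbM) _, ?_, by linarith⟩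
    have : ((c : ℂ) • (w + S.flow t w)) S.vac = (c : ℂ) • (w S.vac + S.flow t w S.vac) := by simp
    rw [this]
    exact supp_smul _ _ (supp_add _ hsupp hbs)

end Crest.Agent.R84
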