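import Crest.Agent.R84.Doubling

/-!
# R84 task FLAT (section H): the extremal argument producing a flat element.

`Ψ = m − μ β − κ X` is bounded above on `Wc = {w ∈ M | w ξ supported in [al,be]}` because `m ≤ ‖T‖² β` and `β² ≤ X`.
Take an almost maximiser `w`; the doubling inequality forces `X(w) ≤ (2L+1) β(w)²`.
-/

set_option autoImplicit false

namespace Crest.Agent.R84

open Crest.OpAlg

variable {H : Type*} [NormedAddCommGroup H] [InnerProductSpace ℂ H] [CompleteSpace H]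

theorem FLAT_le (S : ModularDatum H) (T : H →L[ℂ] H) (x : H) (r : ℝ) :
    ‖T (S.D.wave r x)‖ ^ 2 ≤ ‖T‖ ^ 2 * ‖x‖ ^ 2 := by
  have h1 : ‖T (S.D.wave r x)‖ ≤ ‖T‖ * ‖x‖ := by
    calc ‖T (S.D.wave r x)‖ ≤ ‖T‖ * ‖S.D.wave r x‖ := T.le_opNorm _
      _ = ‖T‖ * ‖x‖ := by rw [norm_wave_apply]
  calc ‖T (S.D.wave r x)‖ ^ 2 ≤ (‖T‖ * ‖x‖) ^ 2 := pow_le_pow_left₀ (norm_nonneg _) h1 2
    _ = ‖T‖ ^ 2 * ‖x‖ ^ 2 := by ring

theorem FLAT_bc (S : ModularDatum H) (T : H →L[ℂ] H) (x : H) :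
    BC (fun r : ℝ => ‖T (S.D.wave r x)‖ ^ 2) := by
  refine ⟨?_, ‖T‖ ^ 2 * ‖x‖ ^ 2, fun r => ?_⟩
  · exact ((T.continuous.comp (continuous_wave_apply S.D x)).norm).pow 2
  · rw [abs_of_nonneg (by positivity)]
    exact FLAT_le S T x r

theorem FLAT_mm_le (S : ModularDatum H) (ω : Ultrafilter ℕ) (hω : (ω : Filter ℕ) ≤ Filter.atTop)
    (T w : H →L[ℂ] H) : mm S ω T w ≤ ‖T‖ ^ 2 * beta S w := by
  unfold mm beta
  have := ultraMean_mono ω (FLAT_bc S T (w S.vac)) (BC.const (‖T‖ ^ 2 * ‖w S.vac‖ ^ 2))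
    (FLAT_le S T (w S.vac))
  rwa [ultraMean_const ω hω] at this

theorem FLAT_beta_nonneg (S : ModularDatum H) (w : H →L[ℂ] H) : 0 ≤ beta S w := by
  unfold beta; positivity

theorem FLAT_XX_nonneg (S : ModularDatum H) (w : H →L[ℂ] H) : 0 ≤ XX S w := by
  unfold XX; positivity

theorem FLAT_beta_sq_le (S : ModularDatum H) (w : H →L[ℂ] H) : beta S w ^ 2 ≤ XX S w := by
  unfold beta XX
  have h1 : ‖w S.vac‖ ^ 2 = (inner ℂ S.vac ((star w * w) S.vac)).re := by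
    rw [ContinuousLinearMap.mul_apply, ContinuousLinearMap.star_eq_adjoint,
      ContinuousLinearMap.adjoint_inner_right, inner_self_eq_norm_sq_to_K]
    norm_cast
  have h2 : ‖w S.vac‖ ^ 2 ≤ ‖(star w * w) S.vac‖ := by
    rw [h1]
    calc (inner ℂ S.vac ((star w * w) S.vac)).re ≤ ‖inner ℂ S.vac ((star w * w) S.vac)‖ :=
          Complex.re_le_norm _
      _ ≤ ‖S.vac‖ * ‖(star w * w) S.vac‖ := norm_inner_le_norm _ _
      _ = ‖(star w * w) S.vac‖ := by rw [S.norm_vac, one_mul]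
  exact pow_le_pow_left₀ (by positivity) h2 2

theorem FLAT_Psi_le (S : ModularDatum H) (ω : Ultrafilter ℕ) (hω : (ω : Filter ℕ) ≤ Filter.atTop)
    (T : H →L[ℂ] H) (μ κ : ℝ) (hμ : 0 < μ) (hκ : 0 < κ) (w : H →L[ℂ] H) :
    Psi S ω T μ κ w ≤ ‖T‖ ^ 4 / (4 * κ) := by
  unfold Psi
  have h1 := FLAT_mm_le S ω hω T w
  have h2 := FLAT_beta_sq_le S w
  have h3 := FLAT_beta_nonneg S w
  rw [le_div_iff₀ (by positivity)]
  nlinarith [sq_nonneg (‖T‖ ^ 2 - 2 * κ * beta S w), mul_nonneg hμ.le h3,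
    mul_le_mul_of_nonneg_left h2 hκ.le, mul_nonneg (mul_nonneg hμ.le h3) hκ.le,
    mul_le_mul_of_nonneg_left (mul_le_mul_of_nonneg_left h2 hκ.le) hκ.le,
    mul_le_mul_of_nonneg_left h1 hκ.le]

theorem exists_flat (S : ModularDatum H) (herg : S.Ergodic) (ω : Ultrafilter ℕ)
    (hω : (ω : Filter ℕ) ≤ Filter.atTop) (T : H →L[ℂ] H) (al be : ℝ) {a : H →L[ℂ] H}
    (ha : a ∈ S.M) (hsupp : S.D.SupportedIn (Set.Icc al be) (a S.vac)) (μ κ : ℝ) (hμ : 0 < μ)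
    (hκ : 0 < κ) (hpos : 0 < Psi S ω T μ κ a) :
    ∃ w, w ∈ S.M ∧ S.D.SupportedIn (Set.Icc al be) (w S.vac) ∧ 0 < beta S w ∧
      μ * beta S w ≤ mm S ω T w ∧
      XX S w ≤ (2 * (1 / 2 + Real.exp be) + 1) * beta S w ^ 2 := by
  set Ψ0 := Psi S ω T μ κ a with hΨ0
  set N := ‖T‖ ^ 2 with hN
  -- general lower bound of `N β` by `Ψ`
  have hgen : ∀ w : H →L[ℂ] H, Psi S ω T μ κ w ≤ N * beta S w := by
    intro w
    have h1 := FLAT_mm_le S ω hω T w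
    have h3 := FLAT_beta_nonneg S w
    have h4 := FLAT_XX_nonneg S w
    unfold Psi
    nlinarith [mul_nonneg hμ.le h3, mul_nonneg hκ.le h4]
  have hNpos : 0 < N := by
    have h1 := hgen a
    have h3 := FLAT_beta_nonneg S a
    have hN0 : 0 ≤ N := by positivity
    rcases hN0.lt_or_eq with h | h
    · exact h
    · rw [← h, zero_mul] at h1
      linarith
  set bmin := Ψ0 / (2 * N) with hbmin
  have hbpos : 0 < bmin := by positivity
  set τ' := bmin ^ 2 / 4 with hτ'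
  set τ := min (Ψ0 / 2) (κ * bmin ^ 2 / 4) with hτ
  have hτ'pos : 0 < τ' := by positivity
  have hτpos : 0 < τ := lt_min (by positivity) (by positivity)
  -- the supremum
  set s : Set ℝ := {p | ∃ w : H →L[ℂ] H, w ∈ S.M ∧ S.D.SupportedIn (Set.Icc al be) (w S.vac) ∧
    p = Psi S ω T μ κ w} with hs
  have hbdd : BddAbove s := ⟨‖T‖ ^ 4 / (4 * κ), by
    rintro p ⟨w, -, -, rfl⟩
    exact FLAT_Psi_le S ω hω T μ κ hμ hκ w⟩
  have hne : s.Nonempty := ⟨Ψ0, a, ha, hsupp, rfl⟩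
  have hΨ0le : Ψ0 ≤ sSup s := le_csSup hbdd ⟨a, ha, hsupp, rfl⟩
  obtain ⟨p, ⟨w, hwM, hwsupp, rfl⟩, hp⟩ := exists_lt_of_lt_csSup hne (sub_lt_self (sSup s) hτpos)
  obtain ⟨w', hw'M, hw'supp, hdoub⟩ := doubling S herg ω hω T al be hwM hwsupp μ κ τ' hκ.le hτ'pos
  have hw'le : Psi S ω T μ κ w' ≤ sSup s := le_csSup hbdd ⟨w', hw'M, hw'supp, rfl⟩
  have hτ1 : τ ≤ Ψ0 / 2 := min_le_left _ _
  have hτ2 : τ ≤ κ * bmin ^ 2 / 4 := min_le_right _ _
  have hΨw : Ψ0 / 2 < Psi S ω T μ κ w := by linarith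
  have hβ : bmin < beta S w := by
    have h1 := hgen w
    rw [hbmin, div_lt_iff₀ (by positivity)]
    nlinarith
  have hβpos : 0 < beta S w := hbpos.trans hβ
  refine ⟨w, hwM, hwsupp, hβpos, ?_, ?_⟩
  · have h4 := FLAT_XX_nonneg S w
    have : 0 < Psi S ω T μ κ w := by linarith [hpos]
    unfold Psi at this
    nlinarith [mul_nonneg hκ.le h4]
  · have h5 : κ * (XX S w / 2 - (1 / 2 + Real.exp be) * beta S w ^ 2 - τ') < κ * (bmin ^ 2 / 4) := by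
      have : κ * (bmin ^ 2 / 4) = κ * bmin ^ 2 / 4 := by ring
      rw [this]
      linarith
    have h6 : XX S w / 2 - (1 / 2 + Real.exp be) * beta S w ^ 2 - τ' < bmin ^ 2 / 4 :=
      lt_of_mul_lt_mul_left h5 hκ.le
    have h7 : bmin ^ 2 ≤ beta S w ^ 2 := pow_le_pow_left₀ hbpos.le hβ.le 2
    rw [hτ'] at h6
    nlinarith

end Crest.Agent.R84
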