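import Mathlib

/-!
R84 F1: an integrable kernel whose Fourier integral is a continuous cut-off equal to `1` on
`[-1,1]` and vanishing off `[-2,2]`.
-/

set_option autoImplicit false

open MeasureTheory FourierTransform
open scoped ContDiff SchwartzMap

namespace Crest.Agent.R84

theorem exists_kernel :
    ∃ (K : ℝ → ℂ) (Fz : ℝ → ℝ), Integrable K ∧ Continuous Fz ∧ (∀ u, 0 ≤ Fz u ∧ Fz u ≤ 1) ∧
      (∀ u ∈ Set.Icc (-1 : ℝ) 1, Fz u = 1) ∧ (∀ u, u ∉ Set.Icc (-2 : ℝ) 2 → Fz u = 0) ∧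
      ∀ u, ∫ t, K t * Complex.exp (Complex.I * ((t * u : ℝ) : ℂ)) = (Fz u : ℂ) := by
  classical
  let b : ContDiffBump (0 : ℝ) := ⟨1, 2, by norm_num, by norm_num⟩
  have hb1 : HasCompactSupport (fun x : ℝ => ((b x : ℝ) : ℂ)) := by
    have := b.hasCompactSupport
    exact this.comp_left (g := fun r : ℝ => (r : ℂ)) (by simp)
  have hb2 : ContDiff ℝ ∞ (fun x : ℝ => ((b x : ℝ) : ℂ)) :=
    Complex.ofRealCLM.contDiff.comp b.contDiff
  let f : 𝓢(ℝ, ℂ) := hb1.toSchwartzMap hb2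
  have hinv : ∀ u, 𝓕⁻ (𝓕 (f : ℝ → ℂ)) u = f u := by
    intro u
    have h1 : Integrable (𝓕 (f : ℝ → ℂ)) := by
      rw [← SchwartzMap.fourier_coe]
      exact (𝓕 f).integrable
    rw [f.continuous.fourierInv_fourier_eq f.integrable h1]
  have hG : Integrable (𝓕 (f : ℝ → ℂ)) := by
    rw [← SchwartzMap.fourier_coe]
    exact (𝓕 f).integrable
  refine ⟨fun t => ((2 * Real.pi)⁻¹ : ℝ) • 𝓕 (f : ℝ → ℂ) (t * (2 * Real.pi)⁻¹), fun u => b u, ?_, b.continuous,
    fun u => ⟨b.nonneg, b.le_one⟩, ?_, ?_, ?_⟩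
  · exact (hG.comp_mul_right' (inv_ne_zero (mul_pos two_pos Real.pi_pos).ne')).smul ((2 * Real.pi)⁻¹ : ℝ)
  · intro u hu
    apply b.one_of_mem_closedBall
    simp only [Metric.mem_closedBall, dist_zero_right, Real.norm_eq_abs]
    exact abs_le.2 hu
  · intro u hu
    apply b.zero_of_le_dist
    simp only [dist_zero_right, Real.norm_eq_abs]
    by_contra hcon
    exact hu (abs_le.1 (not_le.1 hcon).le)
  · intro u
    have h2 := hinv u
    rw [Real.fourierInv_eq'] at h2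
    have h3 : (f u : ℂ) = ((b u : ℝ) : ℂ) := rfl
    rw [h3] at h2
    rw [← h2]
    have h4 := MeasureTheory.Measure.integral_comp_inv_mul_right
      (fun v : ℝ => Complex.exp (↑(2 * Real.pi * inner ℝ v u) * Complex.I) • 𝓕 (f : ℝ → ℂ) v)
      (2 * Real.pi)
    have hpos : (0 : ℝ) < 2 * Real.pi := by positivity
    rw [abs_of_pos hpos] at h4
    have h5 : (∫ v : ℝ, Complex.exp (↑(2 * Real.pi * inner ℝ v u) * Complex.I) • 𝓕 (f : ℝ → ℂ) v)
        = ((2 * Real.pi)⁻¹ : ℝ) • ∫ x : ℝ, Complex.exp (↑(2 * Real.pi * inner ℝ (x * (2 * Real.pi)⁻¹) u)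
            * Complex.I) • 𝓕 (f : ℝ → ℂ) (x * (2 * Real.pi)⁻¹) := by
      rw [h4, smul_smul, inv_mul_cancel₀ hpos.ne', one_smul]
    rw [h5, ← integral_smul]
    refine integral_congr_ae (Filter.Eventually.of_forall fun t => ?_)
    have h6 : 2 * Real.pi * inner ℝ (t * (2 * Real.pi)⁻¹) u = t * u := by
      have h7 : inner ℝ (t * (2 * Real.pi)⁻¹) u = u * (t * (2 * Real.pi)⁻¹) := by simp [inner]
      rw [h7]
      field_simp
    simp only [h6, smul_eq_mul, Complex.real_smul]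
    ring_nf

end Crest.Agent.R84
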