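import Crest.Agent.R84.CalcCont
import Crest.Agent.R84.CalcSupp

/-!
# R84 task INTCALC (section F2): `f(D) x = ∫ k(t) U_t x dt` when `f(u) = ∫ k(t) e^{itu} dt`, `k ∈ L¹`.
For `x = χ(D) x'`, `χ ∈ C_c`: `t ↦ character t * χ` is norm-continuous into `BCF` and bounded by `‖χ‖`, so
`t ↦ k t • (character t * χ)` is Bochner integrable in `BCF`; its integral is `f * χ` (evaluate at each `u` with the continuous
linear evaluation `BoundedContinuousFunction.evalCLM ℂ u`, `ContinuousLinearMap.integral_comp_comm`). Apply the continuous linear map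
`g ↦ D.apply g x'` (bounded by `apply_apply_norm_le`; build it with `LinearMap.mkContinuous`).
General `x`: both sides are `(‖f‖ + ‖k‖₁)`-Lipschitz in `x`; use `D.window`.
-/

set_option autoImplicit false

namespace Crest.Agent.R84

open Crest.OpAlg MeasureTheory

variable {H : Type*} [NormedAddCommGroup H] [InnerProductSpace ℂ H] [CompleteSpace H]

theorem integrable_smul_wave (D : LineCalculus H) (k : ℝ → ℂ) (hk : Integrable k) (x : H) :
    Integrable fun t : ℝ => k t • D.wave t x := by
  refine Integrable.mono' (hk.norm.mul_const ‖x‖)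
    (hk.aestronglyMeasurable.smul (continuous_wave_apply D x).aestronglyMeasurable) ?_
  filter_upwards with t
  rw [norm_smul, norm_wave_apply]

/-- the continuous linear map `g ↦ g(D) x` -/
noncomputable def INTCALC_L (D : LineCalculus H) (x : H) : BCF →L[ℂ] H :=
  LinearMap.mkContinuous
    { toFun := fun g => D.apply g x
      map_add' := fun g h => by rw [map_add]; rfl
      map_smul' := fun c g => by rw [map_smul]; rfl } ‖x‖
    (fun g => by
      have := apply_apply_norm_le D g x
      simpa [mul_comm] using this)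

theorem INTCALC_L_apply (D : LineCalculus H) (x : H) (g : BCF) :
    INTCALC_L D x g = D.apply g x := rfl

theorem INTCALC_continuous (χ : BCF) (hχ : HasCompactSupport (χ : ℝ → ℂ)) :
    Continuous fun t : ℝ => LineCalculus.character t * χ := by
  obtain ⟨R, hR0, hR⟩ := exists_radius_of_compactSupport χ hχ
  rw [Metric.continuous_iff]
  intro s ε hε
  refine ⟨ε / (R * ‖χ‖ + 1), by positivity, fun t ht => ?_⟩
  rw [dist_eq_norm, ← sub_mul]
  have h1 := norm_character_sub_mul_le χ R hR0 hR s t
  rw [Real.dist_eq] at ht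
  have hpos : 0 < R * ‖χ‖ + 1 := by positivity
  have h2 : |t - s| * (R * ‖χ‖ + 1) < ε := by
    rwa [lt_div_iff₀ hpos] at ht
  have h3 : |t - s| * R * ‖χ‖ ≤ |t - s| * (R * ‖χ‖ + 1) := by
    have : 0 ≤ |t - s| := abs_nonneg _
    nlinarith
  linarith

theorem INTCALC_norm_le (χ : BCF) (t : ℝ) : ‖LineCalculus.character t * χ‖ ≤ ‖χ‖ := by
  rw [BoundedContinuousFunction.norm_le (norm_nonneg _)]
  intro u
  rw [BoundedContinuousFunction.mul_apply, norm_mul, character_apply, Complex.norm_exp]
  have : (Complex.I * ((t * u : ℝ) : ℂ)).re = 0 := by simp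
  rw [this, Real.exp_zero, one_mul]
  exact χ.norm_coe_le_norm u

theorem INTCALC_integrable (k : ℝ → ℂ) (hk : Integrable k) (χ : BCF)
    (hχ : HasCompactSupport (χ : ℝ → ℂ)) :
    Integrable fun t : ℝ => k t • (LineCalculus.character t * χ) := by
  refine Integrable.mono' (hk.norm.mul_const ‖χ‖)
    (hk.aestronglyMeasurable.smul (INTCALC_continuous χ hχ).aestronglyMeasurable) ?_
  filter_upwards with t
  rw [norm_smul]
  exact mul_le_mul_of_nonneg_left (INTCALC_norm_le χ t) (norm_nonneg _)

theorem INTCALC_integral (k : ℝ → ℂ) (hk : Integrable k) (f : BCF)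
    (hf : ∀ u : ℝ, f u = ∫ t, k t * Complex.exp (Complex.I * ((t * u : ℝ) : ℂ))) (χ : BCF)
    (hχ : HasCompactSupport (χ : ℝ → ℂ)) :
    ∫ t, k t • (LineCalculus.character t * χ) = f * χ := by
  ext u
  have h1 := ContinuousLinearMap.integral_comp_comm (BoundedContinuousFunction.evalCLM ℂ u)
    (INTCALC_integrable k hk χ hχ)
  rw [BoundedContinuousFunction.evalCLM_apply] at h1
  rw [← h1, BoundedContinuousFunction.mul_apply, hf u, ← integral_mul_const]
  refine integral_congr_ae ?_
  filter_upwards with t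
  rw [BoundedContinuousFunction.evalCLM_apply, BoundedContinuousFunction.smul_apply,
    BoundedContinuousFunction.mul_apply, character_apply, smul_eq_mul, mul_assoc]

theorem INTCALC_compact (D : LineCalculus H) (k : ℝ → ℂ) (hk : Integrable k) (f : BCF)
    (hf : ∀ u : ℝ, f u = ∫ t, k t * Complex.exp (Complex.I * ((t * u : ℝ) : ℂ))) (χ : BCF)
    (hχ : HasCompactSupport (χ : ℝ → ℂ)) (x : H) :
    D.apply f (D.apply χ x) = ∫ t, k t • D.wave t (D.apply χ x) := by
  have h1 := ContinuousLinearMap.integral_comp_comm (INTCALC_L D x)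
    (INTCALC_integrable k hk χ hχ)
  rw [INTCALC_integral k hk f hf χ hχ, INTCALC_L_apply, apply_mul_apply] at h1
  rw [← h1]
  refine integral_congr_ae ?_
  filter_upwards with t
  rw [INTCALC_L_apply, map_smul, _root_.smul_apply, apply_mul_apply]
  rfl

theorem apply_eq_integral (D : LineCalculus H) (k : ℝ → ℂ) (hk : Integrable k) (f : BCF)
    (hf : ∀ u : ℝ, f u = ∫ t, k t * Complex.exp (Complex.I * ((t * u : ℝ) : ℂ))) (x : H) :
    D.apply f x = ∫ t, k t • D.wave t x := by
  rw [← sub_eq_zero, ← norm_le_zero_iff]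
  set C : ℝ := ‖f‖ + ∫ t, ‖k t‖ with hC
  have hC0 : 0 ≤ C := add_nonneg (norm_nonneg _) (integral_nonneg fun t => norm_nonneg _)
  refine le_of_forall_pos_le_add fun ε hε => ?_
  rw [zero_add]
  obtain ⟨χ, hχ, hx⟩ := D.window x (ε / (C + 1)) (by positivity)
  set y := D.apply χ x with hy
  have hyx := INTCALC_compact D k hk f hf χ hχ x
  rw [← hy] at hyx
  have e1 : D.apply f x - ∫ t, k t • D.wave t x
      = D.apply f (x - y) - ∫ t, k t • D.wave t (x - y) := by
    have : ∫ t, k t • D.wave t (x - y) = (∫ t, k t • D.wave t x) - ∫ t, k t • D.wave t y := by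
      rw [← integral_sub (integrable_smul_wave D k hk x) (integrable_smul_wave D k hk y)]
      refine integral_congr_ae ?_
      filter_upwards with t
      rw [map_sub, smul_sub]
    rw [this, map_sub, hyx]
    abel
  have e2 : ‖D.apply f (x - y)‖ ≤ ‖f‖ * ‖x - y‖ := apply_apply_norm_le D f _
  have e3 : ‖∫ t, k t • D.wave t (x - y)‖ ≤ (∫ t, ‖k t‖) * ‖x - y‖ := by
    refine (norm_integral_le_integral_norm _).trans (le_of_eq ?_)
    rw [← integral_mul_const]
    refine integral_congr_ae ?_
    filter_upwards with t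
    rw [norm_smul, norm_wave_apply]
  have e4 : ‖x - y‖ < ε / (C + 1) := by rw [norm_sub_rev]; exact hx
  have hpos : 0 < C + 1 := by positivity
  have e5 : ‖x - y‖ * (C + 1) < ε := by rwa [lt_div_iff₀ hpos] at e4
  rw [e1]
  calc ‖D.apply f (x - y) - ∫ t, k t • D.wave t (x - y)‖
      ≤ ‖D.apply f (x - y)‖ + ‖∫ t, k t • D.wave t (x - y)‖ := norm_sub_le _ _
    _ ≤ ‖f‖ * ‖x - y‖ + (∫ t, ‖k t‖) * ‖x - y‖ := add_le_add e2 e3
    _ = ‖x - y‖ * C := by rw [hC]; ring
    _ ≤ ‖x - y‖ * (C + 1) := by
        have : 0 ≤ ‖x - y‖ := norm_nonneg _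
        nlinarith
    _ ≤ ε := e5.le

end Crest.Agent.R84
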