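import Crest.Agent.R84.Band
import Crest.Agent.R84.Flat
import Crest.Agent.R84.Trunc

/-!
# R84 section J (assembly): bounded recovery for one band vector with uniform constants.
-/

set_option autoImplicit false

namespace Crest.Agent.R84

open Crest.OpAlg

variable {H : Type*} [NormedAddCommGroup H] [InnerProductSpace ℂ H] [CompleteSpace H]

/-- `r ↦ ‖T U_r y‖²` is bounded continuous -/
theorem MAIN_bc (D : LineCalculus H) (T : H →L[ℂ] H) (y : H) :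
    BC (fun r : ℝ => ‖T (D.wave r y)‖ ^ 2) := by
  refine ⟨?_, (‖T‖ * ‖y‖) ^ 2, fun r => ?_⟩
  · exact ((T.continuous.comp (continuous_wave_apply D y)).norm).pow 2
  · rw [abs_of_nonneg (by positivity)]
    have h : ‖T (D.wave r y)‖ ≤ ‖T‖ * ‖y‖ := by
      calc ‖T (D.wave r y)‖ ≤ ‖T‖ * ‖D.wave r y‖ := T.le_opNorm _
        _ = ‖T‖ * ‖y‖ := by rw [norm_wave_apply]
    exact pow_le_pow_left₀ (norm_nonneg _) h 2

omit [CompleteSpace H] in
/-- pointwise comparison -/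
theorem MAIN_pointwise (T : H →L[ℂ] H) (y z : H) (e : ℝ) (h : ‖y - z‖ ≤ e) :
    ‖T y‖ ^ 2 / 2 - ‖T‖ ^ 2 * e ^ 2 ≤ ‖T z‖ ^ 2 := by
  have h1 : ‖T y‖ ≤ ‖T z‖ + ‖T‖ * e := by
    calc ‖T y‖ = ‖T z + T (y - z)‖ := by rw [map_sub]; congr 1; abel
      _ ≤ ‖T z‖ + ‖T (y - z)‖ := norm_add_le _ _
      _ ≤ ‖T z‖ + ‖T‖ * e := by
        apply add_le_add le_rfl
        exact (T.le_opNorm _).trans (mul_le_mul_of_nonneg_left h (norm_nonneg _))
  have h2 : ‖T y‖ ^ 2 ≤ (‖T z‖ + ‖T‖ * e) ^ 2 := pow_le_pow_left₀ (norm_nonneg _) h1 2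
  nlinarith [sq_nonneg (‖T z‖ - ‖T‖ * e)]

theorem MAIN_mm_lower (S : ModularDatum H) (ω : Ultrafilter ℕ)
    (hω : (ω : Filter ℕ) ≤ Filter.atTop) (T a : H →L[ℂ] H) (x : H) (e : ℝ)
    (h : ‖x - a S.vac‖ ≤ e) :
    ultraMean ω (fun t : ℝ => ‖T (S.D.wave t x)‖ ^ 2) / 2 - ‖T‖ ^ 2 * e ^ 2 ≤ mm S ω T a := by
  have hb1 := MAIN_bc S.D T x
  have hb2 := MAIN_bc S.D T (a S.vac)
  have h1 : ultraMean ω (fun t : ℝ => ‖T (S.D.wave t x)‖ ^ 2 / 2 - ‖T‖ ^ 2 * e ^ 2)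
      ≤ mm S ω T a := by
    apply ultraMean_mono ω ((hb1.div_const 2).sub (BC.const _)) hb2
    intro t
    apply MAIN_pointwise
    rw [← map_sub, norm_wave_apply]; exact h
  rwa [ultraMean_sub ω (hb1.div_const 2) (BC.const _), ultraMean_div_const ω hb1,
    ultraMean_const ω hω] at h1

theorem MAIN_XX_smul (S : ModularDatum H) (l : ℝ) (w : H →L[ℂ] H) :
    XX S ((l : ℂ) • w) = l ^ 4 * XX S w := by
  unfold XX
  have : (star ((l : ℂ) • w) * ((l : ℂ) • w)) = ((l ^ 2 : ℝ) : ℂ) • (star w * w) := by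
    rw [star_smul, smul_mul_smul_comm]
    congr 1
    simp [sq]
  rw [this, _root_.smul_apply, norm_smul, mul_pow, Complex.norm_real,
    Real.norm_eq_abs, sq_abs]
  ring

/-- the uniform flatness constant -/
noncomputable def MAIN_Lc (s Δ : ℝ) : ℝ := 2 * (1 / 2 + Real.exp (s + 2 * Δ)) + 1

/-- the uniform truncation parameter -/
noncomputable def MAIN_th (T : H →L[ℂ] H) (s Δ c : ℝ) : ℝ :=
  c / (16 * (‖T‖ ^ 2 + 1) * MAIN_Lc s Δ)

theorem MAIN_Lc_pos (s Δ : ℝ) : 0 < MAIN_Lc s Δ := by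
  unfold MAIN_Lc
  have := Real.exp_pos (s + 2 * Δ)
  linarith

theorem recover_one (S : ModularDatum H) (herg : S.Ergodic) (ω : Ultrafilter ℕ)
    (hω : (ω : Filter ℕ) ≤ Filter.atTop) (T : H →L[ℂ] H) (CK : ℝ) (hCK0 : 0 ≤ CK)
    (hCK : ∀ (c ρ : ℝ), 0 < ρ → ∃ f : BCF, ‖f‖ ≤ 1 ∧
      (∀ u ∈ Set.Icc (c - ρ) (c + ρ), f u = 1) ∧
      (∀ u, u ∉ Set.Icc (c - 2 * ρ) (c + 2 * ρ) → f u = 0) ∧
      ∀ a ∈ S.M, ∃ b ∈ S.M, ‖b‖ ≤ CK * ‖a‖ ∧ b S.vac = S.D.apply f (a S.vac))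
    (s Δ c d : ℝ) (hc : 0 < c) (hd : 0 < d) (hdΔ : d ≤ Δ) (x : H) (hx : ‖x‖ = 1)
    (hband : S.D.SupportedIn (Set.Icc (s - d) (s + d)) x)
    (hm : c ≤ ultraMean ω (fun t : ℝ => ‖T (S.D.wave t x)‖ ^ 2)) :
    ∃ v ∈ S.M, ‖v‖ ≤ CK * Real.sqrt (1 / (4 * MAIN_th T s Δ c)) ∧
      Real.sqrt c / 8 ≤ ‖T (v S.vac)‖ ∧
      S.D.SupportedIn (Set.Icc (s - 4 * d) (s + 4 * d)) (v S.vac) := by
  -- step 1: the approximation parameter
  set N : ℝ := ‖T‖ ^ 2 + 1 with hN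
  have hNpos : 0 < N := by positivity
  have hTN : ‖T‖ ^ 2 ≤ N := by rw [hN]; linarith
  set e : ℝ := min (2 / 5) (Real.sqrt (c / (8 * N))) with he
  have he0 : 0 < e := lt_min (by norm_num) (Real.sqrt_pos.mpr (by positivity))
  have he1 : e ≤ 2 / 5 := min_le_left _ _
  have he2 : ‖T‖ ^ 2 * e ^ 2 ≤ c / 8 := by
    have h1 : e ^ 2 ≤ c / (8 * N) := by
      calc e ^ 2 ≤ (Real.sqrt (c / (8 * N))) ^ 2 := pow_le_pow_left₀ he0.le (min_le_right _ _) 2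
        _ = c / (8 * N) := Real.sq_sqrt (by positivity)
    calc ‖T‖ ^ 2 * e ^ 2 ≤ N * (c / (8 * N)) :=
          mul_le_mul hTN h1 (by positivity) hNpos.le
      _ = c / 8 := by field_simp
  -- step 2: cyclicity
  obtain ⟨y, ⟨a0, rfl⟩, hy⟩ := S.cyclic.exists_dist_lt x he0
  simp only at hy
  rw [dist_eq_norm] at hy
  -- step 3: smoothing into the band
  obtain ⟨f, hf1, hfone, hfzero, hfM⟩ := hCK s d hd
  obtain ⟨a, haM, -, haξ⟩ := hfM a0 a0.2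
  have hfx : S.D.apply f x = x := supp_apply_eq_self S.D hband f hfone
  have hax : ‖x - a S.vac‖ ≤ e := by
    have h1 : x - a S.vac = S.D.apply f (x - (a0 : H →L[ℂ] H) S.vac) := by
      rw [map_sub, hfx, haξ]
    rw [h1]
    calc ‖S.D.apply f (x - (a0 : H →L[ℂ] H) S.vac)‖
        ≤ ‖f‖ * ‖x - (a0 : H →L[ℂ] H) S.vac‖ := apply_apply_norm_le _ _ _
      _ ≤ 1 * e := mul_le_mul hf1 hy.le (norm_nonneg _) zero_le_one
      _ = e := one_mul _
  have hasupp : S.D.SupportedIn (Set.Icc (s - 2 * d) (s + 2 * d)) (a S.vac) := by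
    rw [haξ]; exact supp_apply_of_zero_off S.D _ f hfzero _
  -- step 4: β(a) ≤ 2, m(a) ≥ 3c/8
  have hbeta : beta S a ≤ 2 := by
    unfold beta
    have h1 : ‖a S.vac‖ ≤ 1 + e := by
      calc ‖a S.vac‖ = ‖x - (x - a S.vac)‖ := by congr 1; abel
        _ ≤ ‖x‖ + ‖x - a S.vac‖ := norm_sub_le _ _
        _ ≤ 1 + e := by rw [hx]; linarith
    have h2 : ‖a S.vac‖ ^ 2 ≤ (1 + e) ^ 2 := pow_le_pow_left₀ (norm_nonneg _) h1 2
    nlinarith
  have hmm : 3 * c / 8 ≤ mm S ω T a := by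
    have := MAIN_mm_lower S ω hω T a x e hax
    linarith
  -- step 5: the potential is positive
  have hX0 : 0 ≤ XX S a := by unfold XX; positivity
  set κ : ℝ := (c / 16) / (XX S a + 1) with hκ
  have hκpos : 0 < κ := by positivity
  have hκX : κ * XX S a ≤ c / 16 := by
    rw [hκ, div_mul_eq_mul_div, div_le_iff₀ (by positivity)]
    nlinarith
  have hPsi : 0 < Psi S ω T (c / 8) κ a := by
    unfold Psi
    nlinarith
  -- step 6: the flat element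
  obtain ⟨w, hwM, hwsupp, hwβ, hwm, hwX⟩ :=
    exists_flat S herg ω hω T (s - 2 * d) (s + 2 * d) haM hasupp (c / 8) κ (by positivity) hκpos hPsi
  have hwX' : XX S w ≤ MAIN_Lc s Δ * beta S w ^ 2 := by
    refine hwX.trans (mul_le_mul_of_nonneg_right ?_ (by positivity))
    unfold MAIN_Lc
    have : Real.exp (s + 2 * d) ≤ Real.exp (s + 2 * Δ) := Real.exp_le_exp.mpr (by linarith)
    linarith
  -- step 7: pick a good time and normalise
  obtain ⟨r, hr⟩ := exists_gt_of_lt_ultraMean ω hω (MAIN_bc S.D T (w S.vac)) (c / 16 * beta S w)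
    (lt_of_lt_of_le (by nlinarith) hwm)
  set l : ℝ := 1 / Real.sqrt (beta S w) with hl
  have hsq : 0 < Real.sqrt (beta S w) := Real.sqrt_pos.mpr hwβ
  have hl2 : l ^ 2 * beta S w = 1 := by
    rw [hl, div_pow, one_pow, Real.sq_sqrt hwβ.le]
    field_simp
  set wt : H →L[ℂ] H := (l : ℂ) • S.flow r w with hwt
  have hwtM : wt ∈ S.M := S.M.smul_mem (flow_mem S r hwM) _
  have hwtξ : wt S.vac = (l : ℂ) • S.D.wave r (w S.vac) := by
    rw [hwt, _root_.smul_apply, flow_vac]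
  have hwtsupp : S.D.SupportedIn (Set.Icc (s - 2 * d) (s + 2 * d)) (wt S.vac) := by
    rw [hwtξ]; exact supp_smul S.D _ (supp_wave S.D r hwsupp)
  have hwtX : XX S wt ≤ MAIN_Lc s Δ := by
    rw [hwt, MAIN_XX_smul, XX_flow]
    calc l ^ 4 * XX S w ≤ l ^ 4 * (MAIN_Lc s Δ * beta S w ^ 2) :=
          mul_le_mul_of_nonneg_left hwX' (by positivity)
      _ = MAIN_Lc s Δ * (l ^ 2 * beta S w) ^ 2 := by ring
      _ = MAIN_Lc s Δ := by rw [hl2]; ring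
  have hTwt : c / 16 ≤ ‖T (wt S.vac)‖ ^ 2 := by
    rw [hwtξ, map_smul, norm_smul, mul_pow, Complex.norm_real, Real.norm_eq_abs, sq_abs]
    calc c / 16 = l ^ 2 * (c / 16 * beta S w) := by
          rw [mul_left_comm, hl2, mul_one]
      _ ≤ l ^ 2 * ‖T (S.D.wave r (w S.vac))‖ ^ 2 :=
          mul_le_mul_of_nonneg_left hr.le (by positivity)
  -- step 8: truncation
  have hLc := MAIN_Lc_pos s Δ
  set θ : ℝ := MAIN_th T s Δ c with hθ
  have hθpos : 0 < θ := by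
    rw [hθ]; unfold MAIN_th; positivity
  obtain ⟨v0, hv0M, hv0n, hv0d⟩ := exists_trunc S wt hwtM θ hθpos
  have hv0n' : ‖v0‖ ≤ Real.sqrt (1 / (4 * θ)) := Real.le_sqrt_of_sq_le hv0n
  -- step 9: smoothing back into the band
  obtain ⟨f', hf'1, hf'one, hf'zero, hf'M⟩ := hCK s (2 * d) (by positivity)
  obtain ⟨v, hvM, hvn, hvξ⟩ := hf'M v0 hv0M
  refine ⟨v, hvM, hvn.trans (mul_le_mul_of_nonneg_left hv0n' hCK0), ?_, ?_⟩
  · have hf'wt : S.D.apply f' (wt S.vac) = wt S.vac := supp_apply_eq_self S.D hwtsupp f' hf'one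
    have h1 : wt S.vac - v S.vac = S.D.apply f' ((wt - v0) S.vac) := by
      rw [_root_.sub_apply, map_sub, hf'wt, hvξ]
    have h2 : ‖wt S.vac - v S.vac‖ ≤ ‖(wt - v0) S.vac‖ := by
      rw [h1]
      calc ‖S.D.apply f' ((wt - v0) S.vac)‖ ≤ ‖f'‖ * ‖(wt - v0) S.vac‖ :=
            apply_apply_norm_le _ _ _
        _ ≤ 1 * ‖(wt - v0) S.vac‖ := mul_le_mul_of_nonneg_right hf'1 (norm_nonneg _)
        _ = _ := one_mul _
    have h3 : (‖T‖ * ‖(wt - v0) S.vac‖) ^ 2 ≤ c / 64 := by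
      rw [mul_pow]
      calc ‖T‖ ^ 2 * ‖(wt - v0) S.vac‖ ^ 2 ≤ N * (θ / 4 * MAIN_Lc s Δ) := by
            apply mul_le_mul hTN _ (by positivity) hNpos.le
            exact hv0d.trans (mul_le_mul_of_nonneg_left hwtX (by positivity))
        _ = c / 64 := by
            rw [hθ]; unfold MAIN_th; rw [← hN]; field_simp; ring
    have hsc : Real.sqrt c ^ 2 = c := Real.sq_sqrt hc.le
    have hsc0 : 0 ≤ Real.sqrt c := Real.sqrt_nonneg c
    have h4 : ‖T‖ * ‖(wt - v0) S.vac‖ ≤ Real.sqrt c / 8 := by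
      apply abs_le_of_sq_le_sq' _ (by positivity) |>.2
      rw [div_pow, hsc]; linarith
    have h5 : Real.sqrt c / 4 ≤ ‖T (wt S.vac)‖ := by
      apply abs_le_of_sq_le_sq' _ (norm_nonneg _) |>.2
      rw [div_pow, hsc]; linarith
    have h6 : ‖T (wt S.vac)‖ ≤ ‖T (v S.vac)‖ + ‖T‖ * ‖(wt - v0) S.vac‖ := by
      calc ‖T (wt S.vac)‖ = ‖T (v S.vac) + T (wt S.vac - v S.vac)‖ := by
            rw [map_sub]; congr 1; abel
        _ ≤ ‖T (v S.vac)‖ + ‖T (wt S.vac - v S.vac)‖ := norm_add_le _ _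
        _ ≤ ‖T (v S.vac)‖ + ‖T‖ * ‖(wt - v0) S.vac‖ := by
            apply add_le_add le_rfl
            exact (T.le_opNorm _).trans (mul_le_mul_of_nonneg_left h2 (norm_nonneg _))
    linarith
  · rw [hvξ]
    apply supp_apply_of_zero_off S.D _ f'
    intro u hu
    apply hf'zero u
    intro hu'
    apply hu
    rw [Set.mem_Icc] at hu' ⊢
    constructor <;> linarith [hu'.1, hu'.2]

end Crest.Agent.R84
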