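import Crest.Agent.R84.Defs

/-!
# R84 task MEAN (section C, part 1): the ultrafilter mean on bounded continuous functions.
`windowMean f k = ⨍ t in Icc (-k) k, f t` is bounded by `B` when `|f| ≤ B`, so along the ultrafilter `ω` it
converges (bounded sequences converge along ultrafilters: the closed interval `Icc (-B) B` is compact,
`IsCompact.ultrafilter_le_nhds` / `Ultrafilter.le_nhds_lim`), and `limUnder` is that limit (`Filter.Tendsto.limUnder_eq`).
Everything else follows from uniqueness of limits. For `k ≥ 1` the window has positive finite measure; `ω ≤ atTop`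
gives `∀ᶠ k in ω, 1 ≤ k`.
-/

set_option autoImplicit false

namespace Crest.Agent.R84

open Crest.OpAlg Filter MeasureTheory
open scoped Topology

theorem BC.add {f g : ℝ → ℝ} (hf : BC f) (hg : BC g) : BC fun t => f t + g t := by
  obtain ⟨hfc, B, hB⟩ := hf
  obtain ⟨hgc, B', hB'⟩ := hg
  exact ⟨hfc.add hgc, B + B', fun t => (abs_add_le _ _).trans (add_le_add (hB t) (hB' t))⟩

theorem BC.neg' {f : ℝ → ℝ} (hf : BC f) : BC (fun t => - f t) := by
  obtain ⟨hfc, B, hB⟩ := hf
  exact ⟨hfc.neg, B, fun t => by rw [abs_neg]; exact hB t⟩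

theorem BC.sub {f g : ℝ → ℝ} (hf : BC f) (hg : BC g) : BC fun t => f t - g t := by
  simpa [sub_eq_add_neg] using hf.add hg.neg'

theorem BC.const_mul {f : ℝ → ℝ} (c : ℝ) (hf : BC f) : BC fun t => c * f t := by
  obtain ⟨hfc, B, hB⟩ := hf
  refine ⟨continuous_const.mul hfc, |c| * B, fun t => ?_⟩
  rw [abs_mul]
  exact mul_le_mul_of_nonneg_left (hB t) (abs_nonneg c)

theorem BC.div_const {f : ℝ → ℝ} (hf : BC f) (c : ℝ) : BC fun t => f t / c := by
  have := hf.const_mul c⁻¹
  simpa [div_eq_inv_mul] using this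

theorem BC.const (c : ℝ) : BC fun _ => c := ⟨continuous_const, |c|, fun _ => le_rfl⟩

theorem BC.comp_add {f : ℝ → ℝ} (hf : BC f) (r : ℝ) : BC fun t => f (t + r) := by
  obtain ⟨hfc, B, hB⟩ := hf
  exact ⟨hfc.comp (continuous_id.add continuous_const), B, fun t => hB _⟩

theorem BC.comp_neg {f : ℝ → ℝ} (hf : BC f) : BC fun t => f (-t) := by
  obtain ⟨hfc, B, hB⟩ := hf
  exact ⟨hfc.comp continuous_neg, B, fun t => hB _⟩

theorem BC.integrableOn {f : ℝ → ℝ} (hf : BC f) (a b : ℝ) :
    IntegrableOn f (Set.Icc a b) volume :=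
  hf.1.continuousOn.integrableOn_compact isCompact_Icc

theorem windowMean_eq (f : ℝ → ℝ) (k : ℕ) :
    windowMean f k = (2 * (k : ℝ))⁻¹ * ∫ t in Set.Icc (-(k : ℝ)) (k : ℝ), f t := by
  unfold windowMean
  rw [setAverage_eq, smul_eq_mul]
  congr 2
  simp [Measure.real, Real.volume_Icc]
  ring

theorem abs_windowMean_le (f : ℝ → ℝ) (B : ℝ) (hB : ∀ t, |f t| ≤ B) (k : ℕ) :
    |windowMean f k| ≤ B := by
  have hB0 : 0 ≤ B := (abs_nonneg _).trans (hB 0)
  rw [windowMean_eq, abs_mul]
  have h1 : |∫ t in Set.Icc (-(k : ℝ)) (k : ℝ), f t| ≤ B * (2 * (k : ℝ)) := by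
    have := norm_setIntegral_le_of_norm_le_const (μ := volume) (s := Set.Icc (-(k : ℝ)) (k : ℝ))
      (f := f) (C := B) (by simp [Real.volume_Icc]) (fun t _ => by simpa using hB t)
    simp only [Real.norm_eq_abs] at this
    refine this.trans (le_of_eq ?_)
    simp [Measure.real, Real.volume_Icc]
    left; ring
  rcases Nat.eq_zero_or_pos k with rfl | hk
  · simpa using hB0
  · have hk' : (0 : ℝ) < 2 * (k : ℝ) := by positivity
    rw [abs_of_pos (inv_pos.mpr hk')]
    calc (2 * (k : ℝ))⁻¹ * |∫ t in Set.Icc (-(k : ℝ)) (k : ℝ), f t|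
        ≤ (2 * (k : ℝ))⁻¹ * (B * (2 * (k : ℝ))) :=
          mul_le_mul_of_nonneg_left h1 (inv_pos.mpr hk').le
      _ = B := by field_simp

theorem tendsto_ultraMean (ω : Ultrafilter ℕ) {f : ℝ → ℝ} (hf : BC f) :
    Tendsto (windowMean f) (ω : Filter ℕ) (nhds (ultraMean ω f)) := by
  obtain ⟨-, B, hB⟩ := hf
  have hmem : ∀ k, windowMean f k ∈ Set.Icc (-B) B := fun k =>
    abs_le.mp (abs_windowMean_le f B hB k)
  have hle : (ω.map (windowMean f) : Filter ℝ) ≤ 𝓟 (Set.Icc (-B) B) := by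
    rw [le_principal_iff]
    exact Filter.mem_map.mpr (Filter.univ_mem' hmem)
  obtain ⟨x, -, hx⟩ := isCompact_Icc.ultrafilter_le_nhds (ω.map (windowMean f)) hle
  exact tendsto_nhds_limUnder ⟨x, hx⟩

theorem ultraMean_eq_of_tendsto (ω : Ultrafilter ℕ) {f : ℝ → ℝ} {x : ℝ}
    (h : Tendsto (windowMean f) ω (𝓝 x)) : ultraMean ω f = x :=
  h.limUnder_eq

theorem windowMean_add {f g : ℝ → ℝ} (hf : BC f) (hg : BC g) (k : ℕ) :
    windowMean (fun t => f t + g t) k = windowMean f k + windowMean g k := by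
  rw [windowMean_eq, windowMean_eq, windowMean_eq,
    integral_add (hf.integrableOn _ _) (hg.integrableOn _ _)]
  ring

theorem windowMean_const_mul (f : ℝ → ℝ) (c : ℝ) (k : ℕ) :
    windowMean (fun t => c * f t) k = c * windowMean f k := by
  rw [windowMean_eq, windowMean_eq, integral_const_mul]
  ring

theorem ultraMean_add (ω : Ultrafilter ℕ) {f g : ℝ → ℝ} (hf : BC f) (hg : BC g) :
    ultraMean ω (fun t => f t + g t) = ultraMean ω f + ultraMean ω g := by
  apply ultraMean_eq_of_tendsto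
  have := (tendsto_ultraMean ω hf).add (tendsto_ultraMean ω hg)
  refine this.congr (fun k => (windowMean_add hf hg k).symm)

theorem ultraMean_const_mul (ω : Ultrafilter ℕ) (c : ℝ) {f : ℝ → ℝ} (hf : BC f) :
    ultraMean ω (fun t => c * f t) = c * ultraMean ω f := by
  apply ultraMean_eq_of_tendsto
  have := (tendsto_ultraMean ω hf).const_mul c
  refine this.congr (fun k => (windowMean_const_mul f c k).symm)

theorem ultraMean_neg' (ω : Ultrafilter ℕ) {f : ℝ → ℝ} (hf : BC f) :
    ultraMean ω (fun t => - f t) = - ultraMean ω f := by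
  have := ultraMean_const_mul ω (-1) hf
  simpa using this

theorem ultraMean_sub (ω : Ultrafilter ℕ) {f g : ℝ → ℝ} (hf : BC f) (hg : BC g) :
    ultraMean ω (fun t => f t - g t) = ultraMean ω f - ultraMean ω g := by
  have := ultraMean_add ω hf hg.neg'
  rw [ultraMean_neg' ω hg] at this
  simpa [sub_eq_add_neg] using this

theorem ultraMean_div_const (ω : Ultrafilter ℕ) {f : ℝ → ℝ} (hf : BC f) (c : ℝ) :
    ultraMean ω (fun t => f t / c) = ultraMean ω f / c := by
  have := ultraMean_const_mul ω c⁻¹ hf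
  simpa [div_eq_inv_mul] using this

theorem windowMean_mono {f g : ℝ → ℝ} (hf : BC f) (hg : BC g) (h : ∀ t, f t ≤ g t) (k : ℕ) :
    windowMean f k ≤ windowMean g k := by
  rw [windowMean_eq, windowMean_eq]
  apply mul_le_mul_of_nonneg_left _ (by positivity)
  exact integral_mono (hf.integrableOn _ _) (hg.integrableOn _ _) h

theorem ultraMean_mono (ω : Ultrafilter ℕ) {f g : ℝ → ℝ} (hf : BC f) (hg : BC g)
    (h : ∀ t, f t ≤ g t) : ultraMean ω f ≤ ultraMean ω g :=
  le_of_tendsto_of_tendsto' (tendsto_ultraMean ω hf) (tendsto_ultraMean ω hg)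
    (windowMean_mono hf hg h)

theorem windowMean_const (c : ℝ) {k : ℕ} (hk : 0 < k) : windowMean (fun _ => c) k = c := by
  rw [windowMean_eq]
  have hk' : (0 : ℝ) < (k : ℝ) := by exact_mod_cast hk
  simp [Measure.real, Real.volume_Icc]
  field_simp
  ring

theorem ultraMean_const (ω : Ultrafilter ℕ) (hω : (ω : Filter ℕ) ≤ atTop) (c : ℝ) :
    ultraMean ω (fun _ => c) = c := by
  apply ultraMean_eq_of_tendsto
  have h1 : ∀ᶠ k in (ω : Filter ℕ), windowMean (fun _ => c) k = c :=
    hω (Filter.eventually_atTop.mpr ⟨1, fun k hk => windowMean_const c hk⟩)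
  exact (tendsto_congr' h1).mpr tendsto_const_nhds

theorem abs_ultraMean_le (ω : Ultrafilter ℕ) {f : ℝ → ℝ} (hf : BC f) (B : ℝ)
    (hB : ∀ t, |f t| ≤ B) : |ultraMean ω f| ≤ B := by
  have h := tendsto_ultraMean ω hf
  exact le_of_tendsto' h.abs (abs_windowMean_le f B hB)

theorem exists_lt_of_ultraMean_lt (ω : Ultrafilter ℕ) (hω : (ω : Filter ℕ) ≤ atTop) {f : ℝ → ℝ}
    (hf : BC f) (c : ℝ) (h : ultraMean ω f < c) : ∃ t, f t < c := by
  by_contra hcon
  have hcon' : ∀ t, c ≤ f t := fun t => not_lt.mp (fun hlt => hcon ⟨t, hlt⟩)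
  have := ultraMean_mono ω (BC.const c) hf hcon'
  rw [ultraMean_const ω hω] at this
  linarith

theorem exists_gt_of_lt_ultraMean (ω : Ultrafilter ℕ) (hω : (ω : Filter ℕ) ≤ atTop) {f : ℝ → ℝ}
    (hf : BC f) (c : ℝ) (h : c < ultraMean ω f) : ∃ t, c < f t := by
  by_contra hcon
  have hcon' : ∀ t, f t ≤ c := fun t => not_lt.mp (fun hlt => hcon ⟨t, hlt⟩)
  have := ultraMean_mono ω hf (BC.const c) hcon'
  rw [ultraMean_const ω hω] at this
  linarith

end Crest.Agent.R84
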