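import Crest.Agent.R84.Sesq
import Crest.Agent.R84.MeanShift
import Crest.Agent.R84.CalcCont
import Crest.Agent.R84.Flow

/-!
# R84 task MEANOP (section E, first half): the operator `Y = mean_t σ_t(y)` (weak sense).
`t ↦ ⟨x,σ_t(y)x'⟩ = ⟨x, U_t y U_{-t} x'⟩` is continuous (`continuous_conj_apply`) and bounded by `‖x‖‖y‖‖x'‖`.
`B x x' := mean Re + i · mean Im` is sesquilinear (additivity / real homogeneity of the mean; for a complex scalar
`c = a + i b` expand `Re (c z) = a Re z − b Im z`, `Im (c z) = a Im z + b Re z`), bounded by `2‖y‖‖x‖‖x'‖`.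
-/

set_option autoImplicit false

namespace Crest.Agent.R84

open Crest.OpAlg Filter

variable {H : Type*} [NormedAddCommGroup H] [InnerProductSpace ℂ H] [CompleteSpace H]

theorem continuous_inner_flow (S : ModularDatum H) (y : H →L[ℂ] H) (x x' : H) :
    Continuous fun t : ℝ => inner ℂ x (S.flow t y x') := by
  have h : Continuous fun t : ℝ => S.flow t y x' := by
    simpa only [flow_apply] using continuous_conj_apply S.D y x'
  exact continuous_const.inner h

theorem norm_inner_flow_le (S : ModularDatum H) (y : H →L[ℂ] H) (x x' : H) (t : ℝ) :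
    ‖inner ℂ x (S.flow t y x')‖ ≤ ‖y‖ * ‖x‖ * ‖x'‖ := by
  calc ‖inner ℂ x (S.flow t y x')‖ ≤ ‖x‖ * ‖S.flow t y x'‖ := norm_inner_le_norm _ _
    _ ≤ ‖x‖ * (‖S.flow t y‖ * ‖x'‖) := by gcongr; exact ContinuousLinearMap.le_opNorm _ _
    _ ≤ ‖x‖ * (‖y‖ * ‖x'‖) := by gcongr; exact norm_flow_le S t y
    _ = ‖y‖ * ‖x‖ * ‖x'‖ := by ring

theorem bc_inner_flow_re (S : ModularDatum H) (y : H →L[ℂ] H) (x x' : H) :
    BC fun t : ℝ => (inner ℂ x (S.flow t y x')).re :=
  ⟨Complex.continuous_re.comp (continuous_inner_flow S y x x'), ‖y‖ * ‖x‖ * ‖x'‖,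
    fun t => (Complex.abs_re_le_norm _).trans (norm_inner_flow_le S y x x' t)⟩

theorem bc_inner_flow_im (S : ModularDatum H) (y : H →L[ℂ] H) (x x' : H) :
    BC fun t : ℝ => (inner ℂ x (S.flow t y x')).im :=
  ⟨Complex.continuous_im.comp (continuous_inner_flow S y x x'), ‖y‖ * ‖x‖ * ‖x'‖,
    fun t => (Complex.abs_im_le_norm _).trans (norm_inner_flow_le S y x x' t)⟩

theorem exists_mean_operator (S : ModularDatum H) (ω : Ultrafilter ℕ) (y : H →L[ℂ] H) :
    ∃ Y : H →L[ℂ] H, ∀ x x' : H,
      (inner ℂ x (Y x')).re = ultraMean ω (fun t : ℝ => (inner ℂ x (S.flow t y x')).re) ∧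
      (inner ℂ x (Y x')).im = ultraMean ω (fun t : ℝ => (inner ℂ x (S.flow t y x')).im) := by
  set R : H → H → ℝ := fun x x' => ultraMean ω (fun t : ℝ => (inner ℂ x (S.flow t y x')).re) with hR
  set I : H → H → ℝ := fun x x' => ultraMean ω (fun t : ℝ => (inner ℂ x (S.flow t y x')).im) with hI
  have hre := bc_inner_flow_re S y
  have him := bc_inner_flow_im S y
  -- additivity
  have Radd_left : ∀ a b z, R (a + b) z = R a z + R b z := by
    intro a b z
    simp only [hR]
    rw [← ultraMean_add ω (hre a z) (hre b z)]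
    congr 1; funext t
    rw [inner_add_left, Complex.add_re]
  have Iadd_left : ∀ a b z, I (a + b) z = I a z + I b z := by
    intro a b z
    simp only [hI]
    rw [← ultraMean_add ω (him a z) (him b z)]
    congr 1; funext t
    rw [inner_add_left, Complex.add_im]
  have Radd_right : ∀ x a b, R x (a + b) = R x a + R x b := by
    intro x a b
    simp only [hR]
    rw [← ultraMean_add ω (hre x a) (hre x b)]
    congr 1; funext t
    rw [map_add, inner_add_right, Complex.add_re]
  have Iadd_right : ∀ x a b, I x (a + b) = I x a + I x b := by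
    intro x a b
    simp only [hI]
    rw [← ultraMean_add ω (him x a) (him x b)]
    congr 1; funext t
    rw [map_add, inner_add_right, Complex.add_im]
  have Rsmul_right : ∀ (c : ℂ) x z, R x (c • z) = c.re * R x z - c.im * I x z := by
    intro c x z
    simp only [hR, hI]
    rw [← ultraMean_const_mul ω c.re (hre x z), ← ultraMean_const_mul ω c.im (him x z),
      ← ultraMean_sub ω ((hre x z).const_mul c.re) ((him x z).const_mul c.im)]
    congr 1; funext t
    rw [map_smul, inner_smul_right, Complex.mul_re]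
  have Ismul_right : ∀ (c : ℂ) x z, I x (c • z) = c.re * I x z + c.im * R x z := by
    intro c x z
    simp only [hR, hI]
    rw [← ultraMean_const_mul ω c.re (him x z), ← ultraMean_const_mul ω c.im (hre x z),
      ← ultraMean_add ω ((him x z).const_mul c.re) ((hre x z).const_mul c.im)]
    congr 1; funext t
    rw [map_smul, inner_smul_right, Complex.mul_im]
  have Rsmul_left : ∀ (c : ℂ) x z, R (c • x) z = c.re * R x z + c.im * I x z := by
    intro c x z
    simp only [hR, hI]
    rw [← ultraMean_const_mul ω c.re (hre x z), ← ultraMean_const_mul ω c.im (him x z),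
      ← ultraMean_add ω ((hre x z).const_mul c.re) ((him x z).const_mul c.im)]
    congr 1; funext t
    rw [inner_smul_left, Complex.mul_re, Complex.conj_re, Complex.conj_im]
    ring
  have Ismul_left : ∀ (c : ℂ) x z, I (c • x) z = c.re * I x z - c.im * R x z := by
    intro c x z
    simp only [hR, hI]
    rw [← ultraMean_const_mul ω c.re (him x z), ← ultraMean_const_mul ω c.im (hre x z),
      ← ultraMean_sub ω ((him x z).const_mul c.re) ((hre x z).const_mul c.im)]
    congr 1; funext t
    rw [inner_smul_left, Complex.mul_im, Complex.conj_re, Complex.conj_im]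
    ring
  have Rbd : ∀ x z, |R x z| ≤ ‖y‖ * ‖x‖ * ‖z‖ := fun x z =>
    abs_ultraMean_le ω (hre x z) _
      (fun t => (Complex.abs_re_le_norm _).trans (norm_inner_flow_le S y x z t))
  have Ibd : ∀ x z, |I x z| ≤ ‖y‖ * ‖x‖ * ‖z‖ := fun x z =>
    abs_ultraMean_le ω (him x z) _
      (fun t => (Complex.abs_im_le_norm _).trans (norm_inner_flow_le S y x z t))
  obtain ⟨Y, hY⟩ := exists_operator_of_sesq (H := H) (fun x z => (⟨R x z, I x z⟩ : ℂ)) (2 * ‖y‖)
    (fun a b z => by
      apply Complex.ext
      · simpa using Radd_left a b z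
      · simpa using Iadd_left a b z)
    (fun c x z => by
      apply Complex.ext
      · simp only [Complex.mul_re, Complex.conj_re, Complex.conj_im]
        rw [Rsmul_left]; ring
      · simp only [Complex.mul_im, Complex.conj_re, Complex.conj_im]
        rw [Ismul_left]; ring)
    (fun x a b => by
      apply Complex.ext
      · simpa using Radd_right x a b
      · simpa using Iadd_right x a b)
    (fun c x z => by
      apply Complex.ext
      · simp only [Complex.mul_re]
        rw [Rsmul_right]
      · simp only [Complex.mul_im]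
        rw [Ismul_right])
    (fun x z => by
      calc ‖(⟨R x z, I x z⟩ : ℂ)‖ ≤ |R x z| + |I x z| := Complex.norm_le_abs_re_add_abs_im _
        _ ≤ ‖y‖ * ‖x‖ * ‖z‖ + ‖y‖ * ‖x‖ * ‖z‖ := add_le_add (Rbd x z) (Ibd x z)
        _ = 2 * ‖y‖ * ‖x‖ * ‖z‖ := by ring)
  refine ⟨Y, fun x x' => ?_⟩
  rw [hY x x']
  exact ⟨rfl, rfl⟩

end Crest.Agent.R84
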