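import Crest.Agent.R84.Defs

/-!
# R84 task SESQ: a bounded sesquilinear form on a Hilbert space is given by a bounded operator.
(Conjugate-linear in the first, linear in the second variable, as Mathlib's `inner ℂ`.)
For fixed `x'`, `x ↦ conj (B x x')` is a bounded linear functional, Riesz (`InnerProductSpace.toDual`) gives `Y x'` with
`⟨Y x', x⟩ = conj (B x x')`, i.e. `⟨x, Y x'⟩ = B x x'`; linearity of `Y` by `ext_inner_left`, bound `‖Y x'‖ ≤ C ‖x'‖`
(`LinearMap.mkContinuous`).
-/

set_option autoImplicit false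

namespace Crest.Agent.R84

variable {H : Type*} [NormedAddCommGroup H] [InnerProductSpace ℂ H] [CompleteSpace H]

theorem exists_operator_of_sesq (B : H → H → ℂ) (C : ℝ)
    (add_left : ∀ x y z, B (x + y) z = B x z + B y z)
    (smul_left : ∀ (c : ℂ) x z, B (c • x) z = (starRingEnd ℂ) c * B x z)
    (add_right : ∀ x y z, B x (y + z) = B x y + B x z)
    (smul_right : ∀ (c : ℂ) x z, B x (c • z) = c * B x z)
    (bound : ∀ x z, ‖B x z‖ ≤ C * ‖x‖ * ‖z‖) :
    ∃ Y : H →L[ℂ] H, ∀ x z, inner ℂ x (Y z) = B x z := by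
  classical
  let φ : H → (H →L[ℂ] ℂ) := fun z =>
    LinearMap.mkContinuous
      { toFun := fun x => (starRingEnd ℂ) (B x z)
        map_add' := fun x y => by simp [add_left]
        map_smul' := fun c x => by simp [smul_left] }
      (C * ‖z‖) (fun x => by
        simp only [LinearMap.coe_mk, AddHom.coe_mk, RCLike.norm_conj]
        calc ‖B x z‖ ≤ C * ‖x‖ * ‖z‖ := bound x z
          _ = C * ‖z‖ * ‖x‖ := by ring)
  let Y0 : H → H := fun z => (InnerProductSpace.toDual ℂ H).symm (φ z)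
  have hY0 : ∀ x z, inner ℂ x (Y0 z) = B x z := by
    intro x z
    have h1 : inner ℂ (Y0 z) x = φ z x := InnerProductSpace.toDual_symm_apply
    rw [← inner_conj_symm, h1]
    simp [φ]
  let Yl : H →ₗ[ℂ] H :=
    { toFun := Y0
      map_add' := fun y z => by
        refine ext_inner_left ℂ (fun x => ?_)
        rw [inner_add_right, hY0, hY0, hY0, add_right]
      map_smul' := fun c z => by
        refine ext_inner_left ℂ (fun x => ?_)
        simp only [RingHom.id_apply]
        rw [inner_smul_right, hY0, hY0, smul_right] }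
  have hb : ∀ z, ‖Yl z‖ ≤ |C| * ‖z‖ := by
    intro z
    change ‖Y0 z‖ ≤ |C| * ‖z‖
    by_cases h0 : ‖Y0 z‖ = 0
    · rw [h0]; positivity
    · have hpos : 0 < ‖Y0 z‖ := lt_of_le_of_ne (norm_nonneg _) (Ne.symm h0)
      have h2 : ‖Y0 z‖ * ‖Y0 z‖ ≤ (|C| * ‖z‖) * ‖Y0 z‖ := by
        have h3 : ‖inner ℂ (Y0 z) (Y0 z)‖ = ‖Y0 z‖ * ‖Y0 z‖ := by
          rw [inner_self_eq_norm_sq_to_K]
          simp [sq]
        rw [← h3, hY0]
        calc ‖B (Y0 z) z‖ ≤ C * ‖Y0 z‖ * ‖z‖ := bound _ _
          _ ≤ |C| * ‖Y0 z‖ * ‖z‖ := by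
              gcongr
              exact le_abs_self C
          _ = (|C| * ‖z‖) * ‖Y0 z‖ := by ring
      exact le_of_mul_le_mul_right h2 hpos
  exact ⟨Yl.mkContinuous |C| hb, fun x z => hY0 x z⟩

end Crest.Agent.R84
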