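import Crest.Agent.R84.CalcMono
import Crest.Agent.R84.CalcSupp

/-!
# R84 task VAC (section B1): the vacuum is fixed by the modular group, `U_t ξ = ξ`.
Proof (readme id=4, B1). `Gr := closure {(aξ,a⋆ξ)} = {p | HalfExp p.1 (J p.2)}` (`S.tomita`).
(i) `(ξ,ξ) ∈ Gr` (a=1) so for `ψ ∈ C_c`: `(e^{u/2}ψ)(D) Jξ = (e^u ψ)(D) ξ`.
(ii) for all `p ∈ Gr`: `⟨p.2,ξ⟩ = ⟨ξ,p.1⟩` (true on the range, closed condition).
(iii) for `z ∈ H`, `ψ ∈ C_c` put `x = ψ(D)z`, `y = (e^{u/2}ψ)(D)z`; then `HalfExp x y`, so `(x,Jy) ∈ Gr` (`J_J`), hence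
 `⟨Jy,ξ⟩ = ⟨ξ,x⟩`, i.e. `⟨Jξ,y⟩ = ⟨ξ,x⟩` for all `z`, so `(e^{u/2} ψ̄)(D) Jξ = ψ̄(D) ξ`.
(iv) so `((e^u − 1)ψ)(D)ξ = 0` for all `ψ ∈ C_c`.
(v) for `χ ∈ C_c` supported in `[-R,R]`: `|e^{itu}−1||χ| ≤ |t| e^R |e^u−1||χ|`, so by `apply_norm_mono`
 `((e^{itu}−1)χ)(D)ξ = 0`, i.e. `χ(D)(U_t ξ − ξ) = 0`; conclude with `eq_zero_of_forall_compact`.
-/

set_option autoImplicit false

namespace Crest.Agent.R84

open Crest.OpAlg

variable {H : Type*} [NormedAddCommGroup H] [InnerProductSpace ℂ H] [CompleteSpace H]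

/-- the bounded continuous function `u ↦ e^{c u} ψ(u)` for `ψ` of compact support -/
noncomputable def VAC_em (c : ℝ) (ψ : BCF) (hψ : HasCompactSupport (ψ : ℝ → ℂ)) : BCF :=
  BoundedContinuousFunction.ofNormedAddCommGroup
    (fun u : ℝ => ((Real.exp (c * u) : ℝ) : ℂ) * ψ u)
    (by
      have hc : Continuous fun u => ψ u := ψ.continuous
      fun_prop)
    (Classical.choose (Continuous.bounded_above_of_compact_support
      (f := fun u : ℝ => ((Real.exp (c * u) : ℝ) : ℂ) * ψ u)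
      (by
        have hc : Continuous fun u => ψ u := ψ.continuous
        fun_prop) hψ.mul_left))
    (Classical.choose_spec (Continuous.bounded_above_of_compact_support
      (f := fun u : ℝ => ((Real.exp (c * u) : ℝ) : ℂ) * ψ u)
      (by
        have hc : Continuous fun u => ψ u := ψ.continuous
        fun_prop) hψ.mul_left))

theorem VAC_em_apply (c : ℝ) (ψ : BCF) (hψ : HasCompactSupport (ψ : ℝ → ℂ)) (u : ℝ) :
    VAC_em c ψ hψ u = ((Real.exp (c * u) : ℝ) : ℂ) * ψ u := rfl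

theorem VAC_star_compact (ψ : BCF) (hψ : HasCompactSupport (ψ : ℝ → ℂ)) :
    HasCompactSupport ((star ψ : BCF) : ℝ → ℂ) := by
  have : ((star ψ : BCF) : ℝ → ℂ) = (fun z : ℂ => star z) ∘ (ψ : ℝ → ℂ) := by
    ext u; rfl
  rw [this]
  exact hψ.comp_left (by simp)

theorem VAC_star_em (c : ℝ) (ψ : BCF) (hψ : HasCompactSupport (ψ : ℝ → ℂ)) :
    star (VAC_em c (star ψ) (VAC_star_compact ψ hψ)) = VAC_em c ψ hψ := by
  ext u
  rw [BoundedContinuousFunction.star_apply, VAC_em_apply, VAC_em_apply,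
    BoundedContinuousFunction.star_apply, RCLike.star_def, map_mul,
    Complex.conj_ofReal, Complex.conj_conj]

omit [CompleteSpace H] in
/-- a conjugate-linear isometric equivalence conjugates inner products -/
theorem VAC_inner_J (J : H ≃ₗᵢ⋆[ℂ] H) (x y : H) :
    inner ℂ (J x) (J y) = inner ℂ y x := by
  have h1 : ‖J x + J y‖ = ‖x + y‖ := by rw [← map_add, J.norm_map]
  have h2 : ‖J x - J y‖ = ‖x - y‖ := by rw [← map_sub, J.norm_map]
  have h3 : ‖J x - Complex.I • J y‖ = ‖x + Complex.I • y‖ := by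
    rw [← J.norm_map (x + Complex.I • y), map_add, J.map_smulₛₗ]
    simp [sub_eq_add_neg]
  have h4 : ‖J x + Complex.I • J y‖ = ‖x - Complex.I • y‖ := by
    rw [← J.norm_map (x - Complex.I • y), map_sub, J.map_smulₛₗ]
    simp [sub_eq_add_neg]
  rw [← inner_conj_symm y x, inner_eq_sum_norm_sq_div_four (𝕜 := ℂ) (J x) (J y),
    inner_eq_sum_norm_sq_div_four (𝕜 := ℂ) x y]
  simp only [RCLike.I_to_complex]
  rw [h1, h2, h3, h4]
  simp only [map_div₀, map_add, map_sub, map_mul, map_pow, RCLike.conj_ofReal, Complex.conj_I]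
  have : (starRingEnd ℂ) (4 : ℂ) = 4 := map_ofNat _ 4
  rw [this]
  ring

/-- (ii) -/
theorem VAC_graph_inner (S : ModularDatum H) (p : H × H)
    (hp : S.D.HalfExp p.1 (S.J p.2)) : inner ℂ p.2 S.vac = inner ℂ S.vac p.1 := by
  have hp' : p ∈ closure (Set.range fun a : S.M =>
      ((a : H →L[ℂ] H) S.vac, star (a : H →L[ℂ] H) S.vac)) := by
    rw [S.tomita]; exact hp
  have hcl : IsClosed {p : H × H | inner ℂ p.2 S.vac = inner ℂ S.vac p.1} := by
    apply isClosed_eq
    · fun_prop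
    · fun_prop
  refine closure_minimal ?_ hcl hp'
  rintro _ ⟨a, rfl⟩
  show inner ℂ (star (a : H →L[ℂ] H) S.vac) S.vac = inner ℂ S.vac ((a : H →L[ℂ] H) S.vac)
  rw [ContinuousLinearMap.star_eq_adjoint, ContinuousLinearMap.adjoint_inner_left]

/-- (i) -/
theorem VAC_halfExp_vac (S : ModularDatum H) : S.D.HalfExp S.vac (S.J S.vac) := by
  have h : ((S.vac, S.vac) : H × H) ∈ closure (Set.range fun a : S.M =>
      ((a : H →L[ℂ] H) S.vac, star (a : H →L[ℂ] H) S.vac)) := by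
    apply subset_closure
    refine ⟨⟨1, one_mem _⟩, ?_⟩
    simp
  rw [S.tomita] at h
  exact h

theorem VAC_step1 (S : ModularDatum H) (ψ : BCF) (hψ : HasCompactSupport (ψ : ℝ → ℂ)) :
    S.D.apply (VAC_em (1 / 2) ψ hψ) (S.J S.vac) = S.D.apply (VAC_em 1 ψ hψ) S.vac := by
  apply VAC_halfExp_vac S
  intro u
  rw [VAC_em_apply, VAC_em_apply, mul_right_comm, ← Complex.ofReal_mul, ← Real.exp_add]
  congr 3
  ring

/-- (iii) -/
theorem VAC_step3 (S : ModularDatum H) (ψ : BCF) (hψ : HasCompactSupport (ψ : ℝ → ℂ)) :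
    S.D.apply (star (VAC_em (1 / 2) ψ hψ)) (S.J S.vac) = S.D.apply (star ψ) S.vac := by
  apply ext_inner_right ℂ
  intro z
  rw [← inner_apply_right, ← inner_apply_right]
  have hHE : S.D.HalfExp (S.D.apply ψ z) (S.D.apply (VAC_em (1 / 2) ψ hψ) z) := by
    intro f g hfg
    rw [← apply_mul_apply, ← apply_mul_apply]
    congr 2
    ext u
    rw [BoundedContinuousFunction.mul_apply, BoundedContinuousFunction.mul_apply, hfg u,
      VAC_em_apply]
    have : (1 / 2 : ℝ) * u = u / 2 := by ring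
    rw [this]
    ring
  have h := VAC_graph_inner S (S.D.apply ψ z, S.J (S.D.apply (VAC_em (1 / 2) ψ hψ) z))
    (by
      show S.D.HalfExp (S.D.apply ψ z) (S.J (S.J (S.D.apply (VAC_em (1 / 2) ψ hψ) z)))
      rw [S.J_J]; exact hHE)
  simp only at h
  rw [← h]
  conv_rhs => rw [← S.J_J S.vac]
  rw [VAC_inner_J]

/-- (iv) -/
theorem VAC_step4 (S : ModularDatum H) (ψ : BCF) (hψ : HasCompactSupport (ψ : ℝ → ℂ)) :
    S.D.apply (VAC_em 1 ψ hψ) S.vac = S.D.apply ψ S.vac := by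
  rw [← VAC_step1]
  have h := VAC_step3 S (star ψ) (VAC_star_compact ψ hψ)
  rw [VAC_star_em, star_star] at h
  exact h

theorem VAC_exp_bound (R u : ℝ) (hu : |u| ≤ R) : |u| ≤ Real.exp R * |Real.exp u - 1| := by
  have hR : 0 ≤ R := (abs_nonneg u).trans hu
  have h1R : 1 ≤ Real.exp R := Real.one_le_exp hR
  rcases le_total 0 u with h0 | h0
  · have h1 : u + 1 ≤ Real.exp u := Real.add_one_le_exp u
    rw [abs_of_nonneg h0, abs_of_nonneg (by linarith)]
    nlinarith
  · have h1 : -u + 1 ≤ Real.exp (-u) := Real.add_one_le_exp (-u)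
    have h2 : Real.exp u ≤ 1 := Real.exp_le_one_iff.mpr h0
    rw [abs_of_nonpos h0] at hu ⊢
    rw [abs_of_nonpos (by linarith)]
    have h3 : Real.exp (-u) ≤ Real.exp R := Real.exp_le_exp.mpr hu
    have h4 : Real.exp (-u) * Real.exp u = 1 := by rw [← Real.exp_add]; simp
    have h5 : 0 < Real.exp u := Real.exp_pos u
    have h6 : Real.exp (-u) * (1 - Real.exp u) ≤ Real.exp R * (1 - Real.exp u) :=
      mul_le_mul_of_nonneg_right h3 (by linarith)
    nlinarith

theorem wave_vac (S : ModularDatum H) (t : ℝ) : S.D.wave t S.vac = S.vac := by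
  rw [← sub_eq_zero]
  apply eq_zero_of_forall_compact S.D
  intro χ hχ
  obtain ⟨R, hR⟩ := hχ.isCompact.isBounded.subset_closedBall (0 : ℝ)
  set G : BCF := ((|t| * Real.exp R : ℝ) : ℂ) • (VAC_em 1 χ hχ - χ) with hG
  set F : BCF := χ * (LineCalculus.character t - 1) with hF
  have hGz : S.D.apply G S.vac = 0 := by
    rw [hG, map_smul, map_sub]
    simp only [_root_.smul_apply, _root_.sub_apply]
    rw [VAC_step4, sub_self, smul_zero]
  have hFG : ∀ u, ‖F u‖ ≤ ‖G u‖ := by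
    intro u
    rw [hF, hG]
    simp only [BoundedContinuousFunction.mul_apply, BoundedContinuousFunction.coe_smul,
      BoundedContinuousFunction.coe_sub, Pi.sub_apply, BoundedContinuousFunction.coe_one,
      Pi.one_apply, VAC_em_apply, character_apply, one_mul]
    by_cases hu : χ u = 0
    · simp [hu]
    · have hu' : u ∈ tsupport (χ : ℝ → ℂ) := subset_tsupport _ hu
      have hu2 : |u| ≤ R := by
        have := hR hu'
        simpa [Real.norm_eq_abs] using this
      have e1 : ((Real.exp u : ℝ) : ℂ) * χ u - χ u = ((Real.exp u - 1 : ℝ) : ℂ) * χ u := by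
        push_cast; ring
      rw [e1, norm_mul, norm_smul, norm_mul, Complex.norm_real, Complex.norm_real,
        Real.norm_eq_abs, Real.norm_eq_abs]
      have h1 : ‖Complex.exp (Complex.I * ((t * u : ℝ) : ℂ)) - 1‖ ≤ ‖t * u‖ :=
        Real.norm_exp_I_mul_ofReal_sub_one_le
      rw [Real.norm_eq_abs, abs_mul] at h1
      have h2 := VAC_exp_bound R u hu2
      rw [abs_of_nonneg (by positivity : 0 ≤ |t| * Real.exp R)]
      have h3 : |t| * |u| ≤ |t| * (Real.exp R * |Real.exp u - 1|) :=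
        mul_le_mul_of_nonneg_left h2 (abs_nonneg t)
      calc ‖χ u‖ * ‖Complex.exp (Complex.I * ((t * u : ℝ) : ℂ)) - 1‖
          ≤ ‖χ u‖ * (|t| * (Real.exp R * |Real.exp u - 1|)) :=
            mul_le_mul_of_nonneg_left (h1.trans h3) (norm_nonneg _)
        _ = |t| * Real.exp R * (|Real.exp u - 1| * ‖χ u‖) := by ring
  have hFz : S.D.apply F S.vac = 0 := by
    have := apply_norm_mono S.D F G hFG S.vac
    rw [hGz, norm_zero] at this
    exact norm_le_zero_iff.mp this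
  rw [hF, apply_mul_apply, map_sub, map_one] at hFz
  exact hFz

end Crest.Agent.R84
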